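import Vale.Agent.Lib.P154.SN.Chart

/-!
The Lyapunov argument for the potential with mixed exponents.
-/

namespace Vale.Agent.Lib.P154

namespace SN

open ST Filter Topology

section rational

/-- The rational convex majorant. -/
noncomputable def Fq (c β W : ℝ) : ℝ := c * W ^ 2 / (1 + β * W)

lemma Fq_tangent {c β w W : ℝ} (hc : 0 ≤ c) (hβ : 0 ≤ β) (hw : 0 ≤ w) (hW : 0 ≤ W) :
    Fq c β w + (c * (2 * w + β * w ^ 2) / (1 + β * w) ^ 2) * (W - w) ≤ Fq c β W := by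
  have hp : 0 < 1 + β * w := by positivity
  have hq : 0 < 1 + β * W := by positivity
  have e : Fq c β W - (Fq c β w + (c * (2 * w + β * w ^ 2) / (1 + β * w) ^ 2) * (W - w))
      = c * (W - w) ^ 2 / ((1 + β * W) * (1 + β * w) ^ 2) := by
    unfold Fq
    field_simp
    ring
  have : 0 ≤ c * (W - w) ^ 2 / ((1 + β * W) * (1 + β * w) ^ 2) := by positivity
  linarith

lemma Fq_mono {c β W W1 : ℝ} (hc : 0 ≤ c) (hβ : 0 ≤ β) (hW : 0 ≤ W) (h : W ≤ W1) : Fq c β W ≤ Fq c β W1 := by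
  have hW1 : 0 ≤ W1 := le_trans hW h
  have hp : 0 < 1 + β * W := by positivity
  have hq : 0 < 1 + β * W1 := by positivity
  unfold Fq
  rw [div_le_div_iff₀ hp hq]
  have key : W ^ 2 * (1 + β * W1) ≤ W1 ^ 2 * (1 + β * W) := by
    have e : W1 ^ 2 * (1 + β * W) - W ^ 2 * (1 + β * W1) = (W1 - W) * (W1 + W + β * W * W1) := by ring
    have : 0 ≤ (W1 - W) * (W1 + W + β * W * W1) :=
      mul_nonneg (by linarith) (by positivity)
    linarith
  nlinarith [mul_le_mul_of_nonneg_left key hc]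

lemma Fq_nonneg {c β W : ℝ} (hc : 0 ≤ c) (hβ : 0 ≤ β) (hW : 0 ≤ W) : 0 ≤ Fq c β W := by
  unfold Fq
  positivity

end rational

section step

variable {d : ℕ} {lam : ℝ}

lemma En_lin4 (n : ℕ) (a b c e : ℝ) (f g h : ℝ → ℝ → ℝ → ℝ) :
    En d lam n (fun u0 u1 u2 => a * f u0 u1 u2 + b * g u0 u1 u2 + c * h u0 u1 u2 + e)
      = a * En d lam n f + b * En d lam n g + c * En d lam n h + e := by
  have h1 := En_lin (d := d) (lam := lam) n a b e f (fun u0 u1 u2 => g u0 u1 u2 + (c / b) * h u0 u1 u2)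
  by_cases hb : b = 0
  · subst hb
    have h2 := En_lin (d := d) (lam := lam) n a c e f h
    have e2 : (fun u0 u1 u2 => a * f u0 u1 u2 + 0 * g u0 u1 u2 + c * h u0 u1 u2 + e)
        = (fun u0 u1 u2 => a * f u0 u1 u2 + c * h u0 u1 u2 + e) := by
      funext u0 u1 u2; ring
    rw [e2, h2]
    ring
  · have h2 := En_lin (d := d) (lam := lam) n 1 (c / b) 0 g h
    have e2 : (fun u0 u1 u2 => a * f u0 u1 u2 + b * g u0 u1 u2 + c * h u0 u1 u2 + e)
        = (fun u0 u1 u2 => a * f u0 u1 u2 + b * (fun u0 u1 u2 => 1 * g u0 u1 u2 + (c / b) * h u0 u1 u2 + 0) u0 u1 u2 + e) := by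
      funext u0 u1 u2
      field_simp
      ring
    rw [e2, En_lin n a b e f, h2]
    field_simp
    ring

lemma assemble {dd H x Mx E1d E2d Epd Fb FE Eψ ε Es2 Es : ℝ}
    (hm : (1215 / 16) * Mx ≤ (1215 / 16) * ((43 / 45) * E1d + (2 / 45) * E2d))
    (hc : 61 * (Epd - 1 + dd * x) - (1215 / 16) * (Mx - 1 + dd * (H * (16 / 1215))) ≤ Fb)
    (hJ : Fb ≤ FE)
    (hI : dd * (H - 61 * x) + FE + ε * Es2 ≤ Eψ)
    (hs : ε * Es ^ 2 ≤ ε * Es2) :
    (1161 / 16) * (1 - E1d) + (27 / 8) * (1 - E2d) - 61 * (1 - Epd) ≤ Eψ - ε * Es ^ 2 := by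
  linarith

/-- One step of the Lyapunov argument for a convex majorant given by a rational function. -/
theorem step_gen (h1 : -(1 / 2) ≤ lam) (h2 : lam ≤ 1) {c β ε ρ1 ρ2 xm : ℝ} (hc : 0 ≤ c) (hβ : 0 ≤ β) (hε : 0 ≤ ε)
    (hρ : (225 / 256) * ρ2 ≤ 61) (hρ12 : ρ1 ≤ ρ2)
    (hH : ∀ u0 u1 u2, InT u0 u1 u2 →
      ρ1 * (1 - Gp (lam * u0) (lam * u1) (lam * u2)) ≤ Hf (lam * u0) (lam * u1) (lam * u2) ∧
      Hf (lam * u0) (lam * u1) (lam * u2) ≤ ρ2 * (1 - Gp (lam * u0) (lam * u1) (lam * u2)) ∧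
      1 - Gp (lam * u0) (lam * u1) (lam * u2) ≤ xm)
    (hcone : ∀ x y : ℝ, ρ1 * x ≤ y → y ≤ ρ2 * x → 0 ≤ x → x ≤ xm →
      61 * ((1 - x) ^ d - 1 + d * x) - (1215 / 16) * ((1 - y * (16 / 1215)) ^ d - 1 + d * (y * (16 / 1215)))
        ≤ Fq c β (61 * x - (225 / 256) * y))
    (hPW : ∀ u0 u1 u2, InT u0 u1 u2 →
      d * psiN (lam * u0) (lam * u1) (lam * u2) + Fq c β (WN (lam * u0) (lam * u1) (lam * u2))
        + ε * (sq3 u0 u1 u2) ^ 2 ≤ psiN u0 u1 u2)
    (n : ℕ) :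
    En d lam (n + 1) psiN ≤ En d lam n psiN - ε * (En d lam n sq3) ^ 2 := by
  have hscale : ∀ u0 u1 u2, InT u0 u1 u2 → InT (lam * u0) (lam * u1) (lam * u2) :=
    fun u0 u1 u2 hu => InT_scale h1 h2 hu
  set E1 := En d lam n (fun u0 u1 u2 => G1 (lam * u0) (lam * u1) (lam * u2)) with hE1
  set E2 := En d lam n (fun u0 u1 u2 => G2 (lam * u0) (lam * u1) (lam * u2)) with hE2
  set Ep := En d lam n (fun u0 u1 u2 => Gp (lam * u0) (lam * u1) (lam * u2)) with hEp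
  have lin : ∀ a b c' e : ℝ, En d lam n (fun u0 u1 u2 => a * G1 (lam * u0) (lam * u1) (lam * u2)
      + b * G2 (lam * u0) (lam * u1) (lam * u2) + c' * Gp (lam * u0) (lam * u1) (lam * u2) + e)
        = a * E1 + b * E2 + c' * Ep + e :=
    fun a b c' e => En_lin4 n a b c' e (fun u0 u1 u2 => G1 (lam * u0) (lam * u1) (lam * u2))
      (fun u0 u1 u2 => G2 (lam * u0) (lam * u1) (lam * u2))
      (fun u0 u1 u2 => Gp (lam * u0) (lam * u1) (lam * u2))
  have pos : ∀ a b c' e : ℝ, (∀ u0 u1 u2, InT u0 u1 u2 → 0 ≤ a * G1 (lam * u0) (lam * u1) (lam * u2)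
      + b * G2 (lam * u0) (lam * u1) (lam * u2) + c' * Gp (lam * u0) (lam * u1) (lam * u2) + e) →
      0 ≤ a * E1 + b * E2 + c' * Ep + e := by
    intro a b c' e h
    rw [← lin]
    exact En_nonneg h1 h2 n h
  -- the mean of the potential at the next level
  have e1 : En d lam (n + 1) psiN = (1161 / 16) * (1 - E1 ^ d) + (27 / 8) * (1 - E2 ^ d) - 61 * (1 - Ep ^ d) := by
    have := En_lin4 (d := d) (lam := lam) (n + 1) (-(1161 / 16)) (-(27 / 8)) 61 ((1161 / 16) + (27 / 8) - 61) G1 G2 Gp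
    have e2 : psiN = (fun u0 u1 u2 => -(1161 / 16) * G1 u0 u1 u2 + -(27 / 8) * G2 u0 u1 u2 + 61 * Gp u0 u1 u2
        + ((1161 / 16) + (27 / 8) - 61)) := by
      funext u0 u1 u2; unfold psiN Hf; ring
    rw [e2, this, En_G1_succ h1 h2, En_G2_succ h1 h2, En_Gp_succ h1 h2]
    ring
  -- the scaled means
  set H := (1161 / 16) * (1 - E1) + (27 / 8) * (1 - E2) with hHd
  set x := 1 - Ep with hx
  have e3 : En d lam n (fun u0 u1 u2 => psiN (lam * u0) (lam * u1) (lam * u2)) = H - 61 * x := by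
    have e2 : (fun u0 u1 u2 => psiN (lam * u0) (lam * u1) (lam * u2))
        = (fun u0 u1 u2 => -(1161 / 16) * G1 (lam * u0) (lam * u1) (lam * u2)
            + -(27 / 8) * G2 (lam * u0) (lam * u1) (lam * u2) + 61 * Gp (lam * u0) (lam * u1) (lam * u2)
            + ((1161 / 16) + (27 / 8) - 61)) := by
      funext u0 u1 u2; unfold psiN Hf; ring
    rw [e2, lin, hHd, hx]
    ring
  -- hull of the means
  have hGp : ∀ u0 u1 u2, InT u0 u1 u2 → 0 ≤ 1 - Gp (lam * u0) (lam * u1) (lam * u2) := by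
    intro u0 u1 u2 hu
    have := Gp_le_one (hscale u0 u1 u2 hu)
    linarith
  have b1 : ρ1 * x ≤ H := by
    have := pos (-(1161 / 16)) (-(27 / 8)) ρ1 ((1161 / 16) + (27 / 8) - ρ1) (fun u0 u1 u2 hu => by
      have h3 := (hH u0 u1 u2 hu).1
      unfold Hf at h3
      linarith)
    rw [hHd, hx]
    linarith
  have b2 : H ≤ ρ2 * x := by
    have := pos (1161 / 16) (27 / 8) (-ρ2) (ρ2 - (1161 / 16) - (27 / 8)) (fun u0 u1 u2 hu => by
      have h3 := (hH u0 u1 u2 hu).2.1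
      unfold Hf at h3
      linarith)
    rw [hHd, hx]
    linarith
  have b3 : x ≤ xm := by
    have := pos 0 0 1 (xm - 1) (fun u0 u1 u2 hu => by
      have h3 := (hH u0 u1 u2 hu).2.2
      linarith)
    rw [hx]
    linarith
  have b4 : 0 ≤ x := by
    have := pos 0 0 (-1) 1 (fun u0 u1 u2 hu => by
      have h3 := hGp u0 u1 u2 hu
      linarith)
    rw [hx]
    linarith
  -- Jensen for the mixture of the first two functions
  have hE1n : 0 ≤ E1 := by
    apply En_nonneg h1 h2 n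
    intro u0 u1 u2 hu
    have hT := hscale u0 u1 u2 hu
    obtain ⟨_, a0, a1, a2⟩ := hT
    have r0 := rt_nonneg (by linarith : 0 ≤ 1 + lam * u0)
    have r1 := rt_nonneg (by linarith : 0 ≤ 1 + lam * u1)
    have r2 := rt_nonneg (by linarith : 0 ≤ 1 + lam * u2)
    unfold G1 avg6 Gk mon
    positivity
  have hE2n : 0 ≤ E2 := by
    apply En_nonneg h1 h2 n
    intro u0 u1 u2 hu
    have hT := hscale u0 u1 u2 hu
    obtain ⟨_, a0, a1, a2⟩ := hT
    have r0 := rt_nonneg (by linarith : 0 ≤ 1 + lam * u0)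
    have r1 := rt_nonneg (by linarith : 0 ≤ 1 + lam * u1)
    have r2 := rt_nonneg (by linarith : 0 ≤ 1 + lam * u2)
    unfold G2 avg6 Gk mon
    positivity
  have hmix := pow_mix (d := d) hE1n hE2n (by norm_num : (0 : ℝ) ≤ 43 / 45) (by norm_num : (0 : ℝ) ≤ 2 / 45)
    (by norm_num)
  have hEb : (43 / 45) * E1 + (2 / 45) * E2 = 1 - H * (16 / 1215) := by
    rw [hHd]; ring
  rw [hEb] at hmix
  -- the second order term
  have hcone' := hcone x H b1 b2 b4 b3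
  -- Jensen for the convex majorant
  set Wb := 61 * x - (225 / 256) * H with hWb
  have hW : ∀ u0 u1 u2, InT u0 u1 u2 → 0 ≤ WN (lam * u0) (lam * u1) (lam * u2) := by
    intro u0 u1 u2 hu
    obtain ⟨_, a2, _⟩ := hH u0 u1 u2 hu
    have a4 := hGp u0 u1 u2 hu
    unfold WN
    have := mul_nonneg (by linarith : 0 ≤ 61 - (225 / 256) * ρ2) a4
    nlinarith
  have hWb0 : 0 ≤ Wb := by
    rw [hWb]
    have := mul_nonneg (by linarith : 0 ≤ 61 - (225 / 256) * ρ2) b4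
    nlinarith
  set D := c * (2 * Wb + β * Wb ^ 2) / (1 + β * Wb) ^ 2 with hD
  have hJ : Fq c β Wb ≤ En d lam n (fun u0 u1 u2 => Fq c β (WN (lam * u0) (lam * u1) (lam * u2))) := by
    have h3 := En_le (d := d) (lam := lam) h1 h2 n
      (f := fun u0 u1 u2 => (D * (225 / 256) * (1161 / 16)) * G1 (lam * u0) (lam * u1) (lam * u2)
        + (D * (225 / 256) * (27 / 8)) * G2 (lam * u0) (lam * u1) (lam * u2)
        + (-61 * D) * Gp (lam * u0) (lam * u1) (lam * u2)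
        + (Fq c β Wb + D * (61 - (225 / 256) * ((1161 / 16) + (27 / 8)) - Wb)))
      (g := fun u0 u1 u2 => Fq c β (WN (lam * u0) (lam * u1) (lam * u2)))
      (fun u0 u1 u2 hu => by
        have a1 := hW u0 u1 u2 hu
        have := Fq_tangent (w := Wb) (W := WN (lam * u0) (lam * u1) (lam * u2)) hc hβ hWb0 a1
        have e : (D * (225 / 256) * (1161 / 16)) * G1 (lam * u0) (lam * u1) (lam * u2)
            + (D * (225 / 256) * (27 / 8)) * G2 (lam * u0) (lam * u1) (lam * u2)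
            + (-61 * D) * Gp (lam * u0) (lam * u1) (lam * u2)
            + (Fq c β Wb + D * (61 - (225 / 256) * ((1161 / 16) + (27 / 8)) - Wb))
            = Fq c β Wb + D * (WN (lam * u0) (lam * u1) (lam * u2) - Wb) := by
          unfold WN Hf; ring
        rw [e]
        exact this)
    rw [lin] at h3
    have e : D * (225 / 256) * (1161 / 16) * E1 + D * (225 / 256) * (27 / 8) * E2 + -61 * D * Ep
        + (Fq c β Wb + D * (61 - (225 / 256) * ((1161 / 16) + (27 / 8)) - Wb)) = Fq c β Wb := by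
      have e' : Wb = 61 * (1 - Ep) - (225 / 256) * ((1161 / 16) * (1 - E1) + (27 / 8) * (1 - E2)) := rfl
      have : D * (225 / 256) * (1161 / 16) * E1 + D * (225 / 256) * (27 / 8) * E2 + -61 * D * Ep
          + (Fq c β Wb + D * (61 - (225 / 256) * ((1161 / 16) + (27 / 8)) - Wb))
          = Fq c β Wb + D * ((61 * (1 - Ep) - (225 / 256) * ((1161 / 16) * (1 - E1) + (27 / 8) * (1 - E2))) - Wb) := by
        ring
      rw [this, ← e']
      ring
    rw [e] at h3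
    exact h3
  -- the integrated pointwise inequality
  have hI := En_le (d := d) (lam := lam) h1 h2 n hPW
  have eI : En d lam n (fun u0 u1 u2 => d * psiN (lam * u0) (lam * u1) (lam * u2)
        + Fq c β (WN (lam * u0) (lam * u1) (lam * u2)) + ε * (sq3 u0 u1 u2) ^ 2)
      = d * En d lam n (fun u0 u1 u2 => psiN (lam * u0) (lam * u1) (lam * u2))
        + En d lam n (fun u0 u1 u2 => Fq c β (WN (lam * u0) (lam * u1) (lam * u2)))
        + ε * En d lam n (fun u0 u1 u2 => (sq3 u0 u1 u2) ^ 2) := by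
    have a := En_lin (d := d) (lam := lam) n 1 ε 0
      (fun u0 u1 u2 => Fq c β (WN (lam * u0) (lam * u1) (lam * u2))) (fun u0 u1 u2 => (sq3 u0 u1 u2) ^ 2)
    have b := En_lin (d := d) (lam := lam) n d 1 0
      (fun u0 u1 u2 => psiN (lam * u0) (lam * u1) (lam * u2))
      (fun u0 u1 u2 => 1 * Fq c β (WN (lam * u0) (lam * u1) (lam * u2)) + ε * (sq3 u0 u1 u2) ^ 2 + 0)
    have e : (fun u0 u1 u2 => d * psiN (lam * u0) (lam * u1) (lam * u2)
        + Fq c β (WN (lam * u0) (lam * u1) (lam * u2)) + ε * (sq3 u0 u1 u2) ^ 2)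
        = (fun u0 u1 u2 => d * psiN (lam * u0) (lam * u1) (lam * u2)
          + 1 * (1 * Fq c β (WN (lam * u0) (lam * u1) (lam * u2)) + ε * (sq3 u0 u1 u2) ^ 2 + 0) + 0) := by
      funext u0 u1 u2; ring
    rw [e, b, a]
    ring
  rw [eI, e3] at hI
  have hJ2 := En_sq_le (d := d) (lam := lam) h1 h2 n sq3
  -- assembling
  have hJ3 := mul_le_mul_of_nonneg_left hJ2 hε
  have ex1 : 1 - x = Ep := by rw [hx]; ring
  rw [ex1] at hcone'
  have hm2 := mul_le_mul_of_nonneg_left hmix (by norm_num : (0 : ℝ) ≤ 1215 / 16)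
  rw [e1]
  exact assemble hm2 hcone' hJ hI hJ3

/-- Nonreconstruction from one step of the Lyapunov argument. -/
theorem gap_of_step (h1 : -(1 / 2) ≤ lam) (h2 : lam ≤ 1) {ε : ℝ} (hε : 0 < ε)
    (hpos : ∀ u0 u1 u2, InT u0 u1 u2 → 0 ≤ psiN u0 u1 u2)
    (hstep : ∀ n, En d lam (n + 1) psiN ≤ En d lam n psiN - ε * (En d lam n sq3) ^ 2) :
    Tendsto (fun n => reconstructionGap 3 d lam n) atTop (𝓝 0) := by
  apply gap_tendsto h1 h2
  apply tendsto_of_decrement (l := fun n => En d lam n psiN) (κ := ε)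
    hε (fun n => En_nonneg h1 h2 n hpos) (fun n => En_sq3_nonneg h1 h2 n)
  exact hstep

end step

section core

/-- The constant in front of the square. -/
noncomputable def CHv : ℝ := 224265 / 1048576

lemma pw_core_plain {l d X A B Pu P W E : ℝ} (hl : 0 < l) (hd1 : 1 ≤ d) (hdl : d * l ^ 2 ≤ 1) (hX : 0 ≤ X)
    (hP : 0 ≤ P) (hW0 : 0 ≤ W) (g1 : P - l ^ 2 * X ≤ (l ^ 2 * X) ^ 2 * A) (g2 : W ≤ l ^ 2 * X * B)
    (ht : X ^ 2 * ((l * l * A + CHv * (1 - l * l) * (B * B)) + E) ≤ Pu - X) :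
    d * P + Fq (CHv * d * (d - 1)) 0 W + E * X ^ 2 ≤ Pu := by
  have hl2 : 0 < l ^ 2 := by positivity
  have hC : 0 < CHv := by unfold CHv; norm_num
  have e0 : Fq (CHv * d * (d - 1)) 0 W = CHv * d * (d - 1) * W ^ 2 := by
    unfold Fq; simp
  rw [e0]
  -- the first term
  have h1 : l ^ 2 * (d * P) ≤ P := by
    have := mul_le_mul_of_nonneg_right hdl hP
    nlinarith
  have h2 : l ^ 2 * (d * P) ≤ l ^ 2 * (X + l ^ 2 * X ^ 2 * A) := by nlinarith
  have h3 : d * P ≤ X + l ^ 2 * X ^ 2 * A := le_of_mul_le_mul_left h2 hl2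
  -- the second term
  have hW2 : W ^ 2 ≤ (l ^ 2 * X * B) ^ 2 := pow_le_pow_left₀ hW0 g2 2
  have h4 : d * (d - 1) * (l ^ 2) ^ 2 ≤ 1 - l ^ 2 := by
    have a1 : 0 ≤ (d - 1) * l ^ 2 := mul_nonneg (by linarith) hl2.le
    have a2 : (d - 1) * l ^ 2 ≤ 1 - l ^ 2 := by nlinarith
    have a3 := mul_le_mul_of_nonneg_right hdl a1
    nlinarith
  have hdd : 0 ≤ d * (d - 1) := mul_nonneg (by linarith) (by linarith)
  have h5 : CHv * d * (d - 1) * W ^ 2 ≤ CHv * (1 - l ^ 2) * (X ^ 2 * B ^ 2) := by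
    have b1 : CHv * d * (d - 1) * W ^ 2 ≤ CHv * (d * (d - 1)) * (l ^ 2 * X * B) ^ 2 := by
      have := mul_le_mul_of_nonneg_left hW2 (by positivity : 0 ≤ CHv * (d * (d - 1)))
      nlinarith
    have b2 : CHv * (d * (d - 1)) * (l ^ 2 * X * B) ^ 2
        = CHv * (d * (d - 1) * (l ^ 2) ^ 2) * (X ^ 2 * B ^ 2) := by ring
    have b3 : CHv * (d * (d - 1) * (l ^ 2) ^ 2) * (X ^ 2 * B ^ 2) ≤ CHv * (1 - l ^ 2) * (X ^ 2 * B ^ 2) := by
      apply mul_le_mul_of_nonneg_right _ (by positivity)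
      exact mul_le_mul_of_nonneg_left h4 hC.le
    linarith
  nlinarith

lemma pw_core_rat {l d X A B Pu P W E Wm b0 b1 : ℝ} (hl : 0 < l) (hd1 : 2 ≤ d) (hdl : d * l ^ 2 ≤ 1)
    (hl2' : 2 * l ^ 2 ≤ 1) (hX : 0 ≤ X) (hb0 : 0 ≤ b0) (hb1 : 0 ≤ b1)
    (hP : 0 ≤ P) (hW0 : 0 ≤ W) (g1 : P - l ^ 2 * X ≤ (l ^ 2 * X) ^ 2 * A) (g2 : W ≤ l ^ 2 * X * B)
    (hWm : W ≤ Wm) (hWm' : (b1 - b0) * Wm ≤ 1)
    (ht : X ^ 2 * ((l * l * A + (CHv * (1 - l * l)) * ((B * B) * (1 + (b0 * (l * l) + b1 * (1 - 2 * (l * l))) * (B * X))⁻¹)) + E)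
      ≤ Pu - X) :
    d * P + Fq (CHv * d * (d - 1)) (b0 + b1 * (d - 2)) W + E * X ^ 2 ≤ Pu := by
  have hl2 : 0 < l ^ 2 := by positivity
  have hC : 0 < CHv := by unfold CHv; norm_num
  -- the first term
  have h1 : l ^ 2 * (d * P) ≤ P := by
    have := mul_le_mul_of_nonneg_right hdl hP
    nlinarith
  have h2 : l ^ 2 * (d * P) ≤ l ^ 2 * (X + l ^ 2 * X ^ 2 * A) := by nlinarith
  have h3 : d * P ≤ X + l ^ 2 * X ^ 2 * A := le_of_mul_le_mul_left h2 hl2
  -- the second term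
  set Dv := 1 / l ^ 2 with hDv
  have hDl : Dv * l ^ 2 = 1 := by rw [hDv]; field_simp
  have hdD : d ≤ Dv := by
    rw [hDv, le_div_iff₀ hl2]; exact hdl
  have hβd : 0 ≤ b0 + b1 * (d - 2) := by
    have := mul_nonneg hb1 (by linarith : 0 ≤ d - 2)
    linarith
  have hβD : 0 ≤ b0 + b1 * (Dv - 2) := by
    have := mul_nonneg hb1 (by linarith : 0 ≤ Dv - 2)
    linarith
  have hb : 0 ≤ l ^ 2 * X * B := le_trans hW0 g2
  have hdpos : 0 < 1 + (b0 + b1 * (d - 2)) * W := by positivity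
  have hDpos : 0 < 1 + (b0 + b1 * (Dv - 2)) * W := by positivity
  -- comparison of the coefficients
  have key : (d - 1) * (1 + (b0 + b1 * (Dv - 2)) * W) ≤ (Dv - 1) * (1 + (b0 + b1 * (d - 2)) * W) := by
    have e : (Dv - 1) * (1 + (b0 + b1 * (d - 2)) * W) - (d - 1) * (1 + (b0 + b1 * (Dv - 2)) * W)
        = (Dv - d) * (1 + (b0 - b1) * W) := by ring
    have a1 : (b1 - b0) * W ≤ 1 := by
      by_cases hs : 0 ≤ b1 - b0
      · have := mul_le_mul_of_nonneg_left hWm hs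
        linarith
      · have hs' : b1 - b0 < 0 := not_le.1 hs
        have := mul_nonneg (neg_nonneg.2 hs'.le) hW0
        nlinarith
    have a2 : 0 ≤ (Dv - d) * (1 + (b0 - b1) * W) := mul_nonneg (by linarith) (by nlinarith)
    linarith
  have hF1 : Fq (CHv * d * (d - 1)) (b0 + b1 * (d - 2)) W ≤ Fq (CHv * Dv * (Dv - 1)) (b0 + b1 * (Dv - 2)) W := by
    unfold Fq
    rw [div_le_div_iff₀ hdpos hDpos]
    have hW2 : 0 ≤ CHv * W ^ 2 := by positivity
    have a1 : d * ((d - 1) * (1 + (b0 + b1 * (Dv - 2)) * W)) ≤ Dv * ((Dv - 1) * (1 + (b0 + b1 * (d - 2)) * W)) := by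
      have b1' : d * ((d - 1) * (1 + (b0 + b1 * (Dv - 2)) * W)) ≤ d * ((Dv - 1) * (1 + (b0 + b1 * (d - 2)) * W)) :=
        mul_le_mul_of_nonneg_left key (by linarith)
      have b2' : d * ((Dv - 1) * (1 + (b0 + b1 * (d - 2)) * W)) ≤ Dv * ((Dv - 1) * (1 + (b0 + b1 * (d - 2)) * W)) :=
        mul_le_mul_of_nonneg_right hdD (mul_nonneg (by linarith) hdpos.le)
      linarith
    have := mul_le_mul_of_nonneg_left a1 hW2
    nlinarith
  have hcD : 0 ≤ CHv * Dv * (Dv - 1) := by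
    have : 0 ≤ Dv := by linarith
    exact mul_nonneg (mul_nonneg hC.le this) (by linarith)
  have hF2 := Fq_mono hcD hβD hW0 g2
  have hXB : 0 ≤ B * X := by
    rcases hX.eq_or_lt with e | hXp
    · rw [← e]; simp
    · have : 0 ≤ (l ^ 2 * X) * B := hb
      have h6 : 0 ≤ B := by
        by_contra hc
        have hc' : B < 0 := not_le.1 hc
        have : (l ^ 2 * X) * B < 0 := mul_neg_of_pos_of_neg (by positivity) hc'
        linarith
      exact mul_nonneg h6 hXp.le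
  have ebt : (b0 + b1 * (Dv - 2)) * (l ^ 2 * X * B) = (b0 * (l * l) + b1 * (1 - 2 * (l * l))) * (B * X) := by
    have : (b0 + b1 * (Dv - 2)) * (l ^ 2 * X * B)
        = (b0 * l ^ 2 + b1 * (Dv * l ^ 2 - 2 * l ^ 2)) * (B * X) := by ring
    rw [this, hDl]
    ring
  have hF3 : Fq (CHv * Dv * (Dv - 1)) (b0 + b1 * (Dv - 2)) (l ^ 2 * X * B)
      = X ^ 2 * ((CHv * (1 - l * l)) * ((B * B) * (1 + (b0 * (l * l) + b1 * (1 - 2 * (l * l))) * (B * X))⁻¹)) := by
    unfold Fq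
    rw [ebt, div_eq_mul_inv]
    have : CHv * Dv * (Dv - 1) * (l ^ 2 * X * B) ^ 2
        = X ^ 2 * ((CHv * ((Dv * l ^ 2) * ((Dv * l ^ 2) - l ^ 2))) * (B * B)) := by ring
    rw [this, hDl]
    ring
  have h5 := hF1.trans (hF2.trans_eq hF3)
  have e9 : X ^ 2 * ((l * l * A + (CHv * (1 - l * l)) * ((B * B) * (1 + (b0 * (l * l) + b1 * (1 - 2 * (l * l))) * (B * X))⁻¹)) + E)
      = l ^ 2 * X ^ 2 * A + X ^ 2 * ((CHv * (1 - l * l)) * ((B * B) * (1 + (b0 * (l * l) + b1 * (1 - 2 * (l * l))) * (B * X))⁻¹))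
        + E * X ^ 2 := by ring
  rw [e9] at ht
  linarith

end core

end SN

end Vale.Agent.Lib.P154
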