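import Vale.Agent.Lib.P154.SN.RealEq
import Vale.Agent.Lib.P154.SN.TopC

/-! Generated: the comparison of the second order term with the rational majorant. -/

namespace Vale.Agent.Lib.P154

namespace SN

open ST

theorem coneK3 {x ρ : ℝ} (h0 : 0 ≤ x) (h1 : x ≤ 147 / 512) (h2 : 1743 / 2048 ≤ ρ) (h3 : ρ ≤ 229 / 256) :
    0 ≤ (672795 / 524288) * ((61 - (273375 / 4096) * ρ) * (61 - (273375 / 4096) * ρ))
      - (1 + (247 / 512) * (x * (61 - (273375 / 4096) * ρ)))
        * (61 * wd 3 x - (1215 / 16) * ((ρ * ρ) * wd 3 (ρ * x))) := by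
  have hb : InBox rootKC3 x ρ 0 0 := by
    unfold rootKC3
    refine ⟨?_, ?_, ?_, ?_⟩ <;> rw [abs_le] <;> unfold rv zv <;> norm_num <;> constructor <;> linarith
  have g := goodKC3 x ρ 0 0 hb (by
    intro j
    rw [nthEx_nil]
    unfold Ex.evR rv zv
    norm_num)
  rw [evR_KC3] at g
  unfold RKC3 nw nr2 at g
  rw [nwx3_eq, nwy3_eq] at g
  have ey : nyy x ρ 0 0 = ρ * x := rfl
  rw [ey] at g
  have e1 : rv 281475321181696 = 672795 / 524288 := by unfold rv zv; norm_num
  have e2 : rv 281475106209792 = 247 / 512 := by unfold rv zv; norm_num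
  have e3 : rv 281492892614656 = 273375 / 4096 := by unfold rv zv; norm_num
  have e4 : rv 281491351273472 = 61 := by unfold rv zv; norm_num
  have e5 : rv 281495361028096 = 1215 / 16 := by unfold rv zv; norm_num
  have e6 : rv 281475245146112 = 1 := by unfold rv zv; norm_num
  rw [e1, e2, e3, e4, e5, e6] at g
  exact g

theorem coneK4 {x ρ : ℝ} (h0 : 0 ≤ x) (h1 : x ≤ 147 / 512) (h2 : 1743 / 2048 ≤ ρ) (h3 : ρ ≤ 229 / 256) :
    0 ≤ (672795 / 262144) * ((61 - (273375 / 4096) * ρ) * (61 - (273375 / 4096) * ρ))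
      - (1 + (227 / 256) * (x * (61 - (273375 / 4096) * ρ)))
        * (61 * wd 4 x - (1215 / 16) * ((ρ * ρ) * wd 4 (ρ * x))) := by
  have hb : InBox rootKC4 x ρ 0 0 := by
    unfold rootKC4
    refine ⟨?_, ?_, ?_, ?_⟩ <;> rw [abs_le] <;> unfold rv zv <;> norm_num <;> constructor <;> linarith
  have g := goodKC4 x ρ 0 0 hb (by
    intro j
    rw [nthEx_nil]
    unfold Ex.evR rv zv
    norm_num)
  rw [evR_KC4] at g
  unfold RKC4 nw nr2 at g
  rw [nwx4_eq, nwy4_eq] at g
  have ey : nyy x ρ 0 0 = ρ * x := rfl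
  rw [ey] at g
  have e1 : rv 281475665652736 = 672795 / 262144 := by unfold rv zv; norm_num
  have e2 : rv 281475214737408 = 227 / 256 := by unfold rv zv; norm_num
  have e3 : rv 281492892614656 = 273375 / 4096 := by unfold rv zv; norm_num
  have e4 : rv 281491351273472 = 61 := by unfold rv zv; norm_num
  have e5 : rv 281495361028096 = 1215 / 16 := by unfold rv zv; norm_num
  have e6 : rv 281475245146112 = 1 := by unfold rv zv; norm_num
  rw [e1, e2, e3, e4, e5, e6] at g
  exact g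

theorem coneK5 {x ρ : ℝ} (h0 : 0 ≤ x) (h1 : x ≤ 147 / 512) (h2 : 1743 / 2048 ≤ ρ) (h3 : ρ ≤ 229 / 256) :
    0 ≤ (1121325 / 262144) * ((61 - (273375 / 4096) * ρ) * (61 - (273375 / 4096) * ρ))
      - (1 + (661 / 512) * (x * (61 - (273375 / 4096) * ρ)))
        * (61 * wd 5 x - (1215 / 16) * ((ρ * ρ) * wd 5 (ρ * x))) := by
  have hb : InBox rootKC5 x ρ 0 0 := by
    unfold rootKC5
    refine ⟨?_, ?_, ?_, ?_⟩ <;> rw [abs_le] <;> unfold rv zv <;> norm_num <;> constructor <;> linarith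
  have g := goodKC5 x ρ 0 0 hb (by
    intro j
    rw [nthEx_nil]
    unfold Ex.evR rv zv
    norm_num)
  rw [evR_KC5] at g
  unfold RKC5 nw nr2 at g
  rw [nwx5_eq, nwy5_eq] at g
  have ey : nyy x ρ 0 0 = ρ * x := rfl
  rw [ey] at g
  have e1 : rv 281476124947456 = 1121325 / 262144 := by unfold rv zv; norm_num
  have e2 : rv 281475323265024 = 661 / 512 := by unfold rv zv; norm_num
  have e3 : rv 281492892614656 = 273375 / 4096 := by unfold rv zv; norm_num
  have e4 : rv 281491351273472 = 61 := by unfold rv zv; norm_num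
  have e5 : rv 281495361028096 = 1215 / 16 := by unfold rv zv; norm_num
  have e6 : rv 281475245146112 = 1 := by unfold rv zv; norm_num
  rw [e1, e2, e3, e4, e5, e6] at g
  exact g

theorem coneK6 {x ρ : ℝ} (h0 : 0 ≤ x) (h1 : x ≤ 147 / 512) (h2 : 1743 / 2048 ≤ ρ) (h3 : ρ ≤ 229 / 256) :
    0 ≤ (3363975 / 524288) * ((61 - (273375 / 4096) * ρ) * (61 - (273375 / 4096) * ρ))
      - (1 + (217 / 128) * (x * (61 - (273375 / 4096) * ρ)))
        * (61 * wd 6 x - (1215 / 16) * ((ρ * ρ) * wd 6 (ρ * x))) := by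
  have hb : InBox rootKC6 x ρ 0 0 := by
    unfold rootKC6
    refine ⟨?_, ?_, ?_, ?_⟩ <;> rw [abs_le] <;> unfold rv zv <;> norm_num <;> constructor <;> linarith
  have g := goodKC6 x ρ 0 0 hb (by
    intro j
    rw [nthEx_nil]
    unfold Ex.evR rv zv
    norm_num)
  rw [evR_KC6] at g
  unfold RKC6 nw nr2 at g
  rw [nwx6_eq, nwy6_eq] at g
  have ey : nyy x ρ 0 0 = ρ * x := rfl
  rw [ey] at g
  have e1 : rv 281476699065856 = 3363975 / 524288 := by unfold rv zv; norm_num
  have e2 : rv 281475431792640 = 217 / 128 := by unfold rv zv; norm_num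
  have e3 : rv 281492892614656 = 273375 / 4096 := by unfold rv zv; norm_num
  have e4 : rv 281491351273472 = 61 := by unfold rv zv; norm_num
  have e5 : rv 281495361028096 = 1215 / 16 := by unfold rv zv; norm_num
  have e6 : rv 281475245146112 = 1 := by unfold rv zv; norm_num
  rw [e1, e2, e3, e4, e5, e6] at g
  exact g

theorem coneK7 {x ρ : ℝ} (h0 : 0 ≤ x) (h1 : x ≤ 147 / 512) (h2 : 1743 / 2048 ≤ ρ) (h3 : ρ ≤ 229 / 256) :
    0 ≤ (4709565 / 524288) * ((61 - (273375 / 4096) * ρ) * (61 - (273375 / 4096) * ρ))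
      - (1 + (1075 / 512) * (x * (61 - (273375 / 4096) * ρ)))
        * (61 * wd 7 x - (1215 / 16) * ((ρ * ρ) * wd 7 (ρ * x))) := by
  have hb : InBox rootKC7 x ρ 0 0 := by
    unfold rootKC7
    refine ⟨?_, ?_, ?_, ?_⟩ <;> rw [abs_le] <;> unfold rv zv <;> norm_num <;> constructor <;> linarith
  have g := goodKC7 x ρ 0 0 hb (by
    intro j
    rw [nthEx_nil]
    unfold Ex.evR rv zv
    norm_num)
  rw [evR_KC7] at g
  unfold RKC7 nw nr2 at g
  rw [nwx7_eq, nwy7_eq] at g
  have ey : nyy x ρ 0 0 = ρ * x := rfl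
  rw [ey] at g
  have e1 : rv 281477388007936 = 4709565 / 524288 := by unfold rv zv; norm_num
  have e2 : rv 281475540320256 = 1075 / 512 := by unfold rv zv; norm_num
  have e3 : rv 281492892614656 = 273375 / 4096 := by unfold rv zv; norm_num
  have e4 : rv 281491351273472 = 61 := by unfold rv zv; norm_num
  have e5 : rv 281495361028096 = 1215 / 16 := by unfold rv zv; norm_num
  have e6 : rv 281475245146112 = 1 := by unfold rv zv; norm_num
  rw [e1, e2, e3, e4, e5, e6] at g
  exact g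

theorem coneK8 {x ρ : ℝ} (h0 : 0 ≤ x) (h1 : x ≤ 147 / 512) (h2 : 1743 / 2048 ≤ ρ) (h3 : ρ ≤ 229 / 256) :
    0 ≤ (1569855 / 131072) * ((61 - (273375 / 4096) * ρ) * (61 - (273375 / 4096) * ρ))
      - (1 + (641 / 256) * (x * (61 - (273375 / 4096) * ρ)))
        * (61 * wd 8 x - (1215 / 16) * ((ρ * ρ) * wd 8 (ρ * x))) := by
  have hb : InBox rootKC8 x ρ 0 0 := by
    unfold rootKC8
    refine ⟨?_, ?_, ?_, ?_⟩ <;> rw [abs_le] <;> unfold rv zv <;> norm_num <;> constructor <;> linarith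
  have g := goodKC8 x ρ 0 0 hb (by
    intro j
    rw [nthEx_nil]
    unfold Ex.evR rv zv
    norm_num)
  rw [evR_KC8] at g
  unfold RKC8 nw nr2 at g
  rw [nwx8_eq, nwy8_eq] at g
  have ey : nyy x ρ 0 0 = ρ * x := rfl
  rw [ey] at g
  have e1 : rv 281478191773696 = 1569855 / 131072 := by unfold rv zv; norm_num
  have e2 : rv 281475648847872 = 641 / 256 := by unfold rv zv; norm_num
  have e3 : rv 281492892614656 = 273375 / 4096 := by unfold rv zv; norm_num
  have e4 : rv 281491351273472 = 61 := by unfold rv zv; norm_num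
  have e5 : rv 281495361028096 = 1215 / 16 := by unfold rv zv; norm_num
  have e6 : rv 281475245146112 = 1 := by unfold rv zv; norm_num
  rw [e1, e2, e3, e4, e5, e6] at g
  exact g

theorem coneK9 {x ρ : ℝ} (h0 : 0 ≤ x) (h1 : x ≤ 147 / 512) (h2 : 1743 / 2048 ≤ ρ) (h3 : ρ ≤ 229 / 256) :
    0 ≤ (2018385 / 131072) * ((61 - (273375 / 4096) * ρ) * (61 - (273375 / 4096) * ρ))
      - (1 + (1489 / 512) * (x * (61 - (273375 / 4096) * ρ)))
        * (61 * wd 9 x - (1215 / 16) * ((ρ * ρ) * wd 9 (ρ * x))) := by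
  have hb : InBox rootKC9 x ρ 0 0 := by
    unfold rootKC9
    refine ⟨?_, ?_, ?_, ?_⟩ <;> rw [abs_le] <;> unfold rv zv <;> norm_num <;> constructor <;> linarith
  have g := goodKC9 x ρ 0 0 hb (by
    intro j
    rw [nthEx_nil]
    unfold Ex.evR rv zv
    norm_num)
  rw [evR_KC9] at g
  unfold RKC9 nw nr2 at g
  rw [nwx9_eq, nwy9_eq] at g
  have ey : nyy x ρ 0 0 = ρ * x := rfl
  rw [ey] at g
  have e1 : rv 281479110363136 = 2018385 / 131072 := by unfold rv zv; norm_num
  have e2 : rv 281475757375488 = 1489 / 512 := by unfold rv zv; norm_num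
  have e3 : rv 281492892614656 = 273375 / 4096 := by unfold rv zv; norm_num
  have e4 : rv 281491351273472 = 61 := by unfold rv zv; norm_num
  have e5 : rv 281495361028096 = 1215 / 16 := by unfold rv zv; norm_num
  have e6 : rv 281475245146112 = 1 := by unfold rv zv; norm_num
  rw [e1, e2, e3, e4, e5, e6] at g
  exact g

theorem coneK10 {x ρ : ℝ} (h0 : 0 ≤ x) (h1 : x ≤ 147 / 512) (h2 : 1743 / 2048 ≤ ρ) (h3 : ρ ≤ 229 / 256) :
    0 ≤ (10091925 / 524288) * ((61 - (273375 / 4096) * ρ) * (61 - (273375 / 4096) * ρ))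
      - (1 + (53 / 16) * (x * (61 - (273375 / 4096) * ρ)))
        * (61 * wd 10 x - (1215 / 16) * ((ρ * ρ) * wd 10 (ρ * x))) := by
  have hb : InBox rootKC10 x ρ 0 0 := by
    unfold rootKC10
    refine ⟨?_, ?_, ?_, ?_⟩ <;> rw [abs_le] <;> unfold rv zv <;> norm_num <;> constructor <;> linarith
  have g := goodKC10 x ρ 0 0 hb (by
    intro j
    rw [nthEx_nil]
    unfold Ex.evR rv zv
    norm_num)
  rw [evR_KC10] at g
  unfold RKC10 nw nr2 at g
  rw [nwx10_eq, nwy10_eq] at g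
  have ey : nyy x ρ 0 0 = ρ * x := rfl
  rw [ey] at g
  have e1 : rv 281480143776256 = 10091925 / 524288 := by unfold rv zv; norm_num
  have e2 : rv 281475865903104 = 53 / 16 := by unfold rv zv; norm_num
  have e3 : rv 281492892614656 = 273375 / 4096 := by unfold rv zv; norm_num
  have e4 : rv 281491351273472 = 61 := by unfold rv zv; norm_num
  have e5 : rv 281495361028096 = 1215 / 16 := by unfold rv zv; norm_num
  have e6 : rv 281475245146112 = 1 := by unfold rv zv; norm_num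
  rw [e1, e2, e3, e4, e5, e6] at g
  exact g

theorem coneK11 {x ρ : ℝ} (h0 : 0 ≤ x) (h1 : x ≤ 147 / 512) (h2 : 1743 / 2048 ≤ ρ) (h3 : ρ ≤ 229 / 256) :
    0 ≤ (12334575 / 524288) * ((61 - (273375 / 4096) * ρ) * (61 - (273375 / 4096) * ρ))
      - (1 + (1903 / 512) * (x * (61 - (273375 / 4096) * ρ)))
        * (61 * wd 11 x - (1215 / 16) * ((ρ * ρ) * wd 11 (ρ * x))) := by
  have hb : InBox rootKC11 x ρ 0 0 := by
    unfold rootKC11
    refine ⟨?_, ?_, ?_, ?_⟩ <;> rw [abs_le] <;> unfold rv zv <;> norm_num <;> constructor <;> linarith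
  have g := goodKC11 x ρ 0 0 hb (by
    intro j
    rw [nthEx_nil]
    unfold Ex.evR rv zv
    norm_num)
  rw [evR_KC11] at g
  unfold RKC11 nw nr2 at g
  rw [nwx11_eq, nwy11_eq] at g
  have ey : nyy x ρ 0 0 = ρ * x := rfl
  rw [ey] at g
  have e1 : rv 281481292013056 = 12334575 / 524288 := by unfold rv zv; norm_num
  have e2 : rv 281475974430720 = 1903 / 512 := by unfold rv zv; norm_num
  have e3 : rv 281492892614656 = 273375 / 4096 := by unfold rv zv; norm_num
  have e4 : rv 281491351273472 = 61 := by unfold rv zv; norm_num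
  have e5 : rv 281495361028096 = 1215 / 16 := by unfold rv zv; norm_num
  have e6 : rv 281475245146112 = 1 := by unfold rv zv; norm_num
  rw [e1, e2, e3, e4, e5, e6] at g
  exact g

theorem coneK12 {x ρ : ℝ} (h0 : 0 ≤ x) (h1 : x ≤ 147 / 512) (h2 : 1743 / 2048 ≤ ρ) (h3 : ρ ≤ 229 / 256) :
    0 ≤ (7400745 / 262144) * ((61 - (273375 / 4096) * ρ) * (61 - (273375 / 4096) * ρ))
      - (1 + (1055 / 256) * (x * (61 - (273375 / 4096) * ρ)))
        * (61 * wd 12 x - (1215 / 16) * ((ρ * ρ) * wd 12 (ρ * x))) := by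
  have hb : InBox rootKC12 x ρ 0 0 := by
    unfold rootKC12
    refine ⟨?_, ?_, ?_, ?_⟩ <;> rw [abs_le] <;> unfold rv zv <;> norm_num <;> constructor <;> linarith
  have g := goodKC12 x ρ 0 0 hb (by
    intro j
    rw [nthEx_nil]
    unfold Ex.evR rv zv
    norm_num)
  rw [evR_KC12] at g
  unfold RKC12 nw nr2 at g
  rw [nwx12_eq, nwy12_eq] at g
  have ey : nyy x ρ 0 0 = ρ * x := rfl
  rw [ey] at g
  have e1 : rv 281482555073536 = 7400745 / 262144 := by unfold rv zv; norm_num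
  have e2 : rv 281476082958336 = 1055 / 256 := by unfold rv zv; norm_num
  have e3 : rv 281492892614656 = 273375 / 4096 := by unfold rv zv; norm_num
  have e4 : rv 281491351273472 = 61 := by unfold rv zv; norm_num
  have e5 : rv 281495361028096 = 1215 / 16 := by unfold rv zv; norm_num
  have e6 : rv 281475245146112 = 1 := by unfold rv zv; norm_num
  rw [e1, e2, e3, e4, e5, e6] at g
  exact g

theorem coneK13 {x ρ : ℝ} (h0 : 0 ≤ x) (h1 : x ≤ 147 / 512) (h2 : 1743 / 2048 ≤ ρ) (h3 : ρ ≤ 229 / 256) :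
    0 ≤ (8746335 / 262144) * ((61 - (273375 / 4096) * ρ) * (61 - (273375 / 4096) * ρ))
      - (1 + (2317 / 512) * (x * (61 - (273375 / 4096) * ρ)))
        * (61 * wd 13 x - (1215 / 16) * ((ρ * ρ) * wd 13 (ρ * x))) := by
  have hb : InBox rootKC13 x ρ 0 0 := by
    unfold rootKC13
    refine ⟨?_, ?_, ?_, ?_⟩ <;> rw [abs_le] <;> unfold rv zv <;> norm_num <;> constructor <;> linarith
  have g := goodKC13 x ρ 0 0 hb (by
    intro j
    rw [nthEx_nil]
    unfold Ex.evR rv zv
    norm_num)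
  rw [evR_KC13] at g
  unfold RKC13 nw nr2 at g
  rw [nwx13_eq, nwy13_eq] at g
  have ey : nyy x ρ 0 0 = ρ * x := rfl
  rw [ey] at g
  have e1 : rv 281483932957696 = 8746335 / 262144 := by unfold rv zv; norm_num
  have e2 : rv 281476191485952 = 2317 / 512 := by unfold rv zv; norm_num
  have e3 : rv 281492892614656 = 273375 / 4096 := by unfold rv zv; norm_num
  have e4 : rv 281491351273472 = 61 := by unfold rv zv; norm_num
  have e5 : rv 281495361028096 = 1215 / 16 := by unfold rv zv; norm_num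
  have e6 : rv 281475245146112 = 1 := by unfold rv zv; norm_num
  rw [e1, e2, e3, e4, e5, e6] at g
  exact g

theorem coneK14 {x ρ : ℝ} (h0 : 0 ≤ x) (h1 : x ≤ 147 / 512) (h2 : 1743 / 2048 ≤ ρ) (h3 : ρ ≤ 229 / 256) :
    0 ≤ (20408115 / 524288) * ((61 - (273375 / 4096) * ρ) * (61 - (273375 / 4096) * ρ))
      - (1 + (631 / 128) * (x * (61 - (273375 / 4096) * ρ)))
        * (61 * wd 14 x - (1215 / 16) * ((ρ * ρ) * wd 14 (ρ * x))) := by
  have hb : InBox rootKC14 x ρ 0 0 := by
    unfold rootKC14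
    refine ⟨?_, ?_, ?_, ?_⟩ <;> rw [abs_le] <;> unfold rv zv <;> norm_num <;> constructor <;> linarith
  have g := goodKC14 x ρ 0 0 hb (by
    intro j
    rw [nthEx_nil]
    unfold Ex.evR rv zv
    norm_num)
  rw [evR_KC14] at g
  unfold RKC14 nw nr2 at g
  rw [nwx14_eq, nwy14_eq] at g
  have ey : nyy x ρ 0 0 = ρ * x := rfl
  rw [ey] at g
  have e1 : rv 281485425665536 = 20408115 / 524288 := by unfold rv zv; norm_num
  have e2 : rv 281476300013568 = 631 / 128 := by unfold rv zv; norm_num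
  have e3 : rv 281492892614656 = 273375 / 4096 := by unfold rv zv; norm_num
  have e4 : rv 281491351273472 = 61 := by unfold rv zv; norm_num
  have e5 : rv 281495361028096 = 1215 / 16 := by unfold rv zv; norm_num
  have e6 : rv 281475245146112 = 1 := by unfold rv zv; norm_num
  rw [e1, e2, e3, e4, e5, e6] at g
  exact g

theorem coneK15 {x ρ : ℝ} (h0 : 0 ≤ x) (h1 : x ≤ 147 / 512) (h2 : 1743 / 2048 ≤ ρ) (h3 : ρ ≤ 229 / 256) :
    0 ≤ (23547825 / 524288) * ((61 - (273375 / 4096) * ρ) * (61 - (273375 / 4096) * ρ))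
      - (1 + (2731 / 512) * (x * (61 - (273375 / 4096) * ρ)))
        * (61 * wd 15 x - (1215 / 16) * ((ρ * ρ) * wd 15 (ρ * x))) := by
  have hb : InBox rootKC15 x ρ 0 0 := by
    unfold rootKC15
    refine ⟨?_, ?_, ?_, ?_⟩ <;> rw [abs_le] <;> unfold rv zv <;> norm_num <;> constructor <;> linarith
  have g := goodKC15 x ρ 0 0 hb (by
    intro j
    rw [nthEx_nil]
    unfold Ex.evR rv zv
    norm_num)
  rw [evR_KC15] at g
  unfold RKC15 nw nr2 at g
  rw [nwx15_eq, nwy15_eq] at g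
  have ey : nyy x ρ 0 0 = ρ * x := rfl
  rw [ey] at g
  have e1 : rv 281487033197056 = 23547825 / 524288 := by unfold rv zv; norm_num
  have e2 : rv 281476408541184 = 2731 / 512 := by unfold rv zv; norm_num
  have e3 : rv 281492892614656 = 273375 / 4096 := by unfold rv zv; norm_num
  have e4 : rv 281491351273472 = 61 := by unfold rv zv; norm_num
  have e5 : rv 281495361028096 = 1215 / 16 := by unfold rv zv; norm_num
  have e6 : rv 281475245146112 = 1 := by unfold rv zv; norm_num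
  rw [e1, e2, e3, e4, e5, e6] at g
  exact g

theorem coneK16 {x ρ : ℝ} (h0 : 0 ≤ x) (h1 : x ≤ 147 / 512) (h2 : 1743 / 2048 ≤ ρ) (h3 : ρ ≤ 229 / 256) :
    0 ≤ (3363975 / 65536) * ((61 - (273375 / 4096) * ρ) * (61 - (273375 / 4096) * ρ))
      - (1 + (1469 / 256) * (x * (61 - (273375 / 4096) * ρ)))
        * (61 * wd 16 x - (1215 / 16) * ((ρ * ρ) * wd 16 (ρ * x))) := by
  have hb : InBox rootKC16 x ρ 0 0 := by
    unfold rootKC16
    refine ⟨?_, ?_, ?_, ?_⟩ <;> rw [abs_le] <;> unfold rv zv <;> norm_num <;> constructor <;> linarith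
  have g := goodKC16 x ρ 0 0 hb (by
    intro j
    rw [nthEx_nil]
    unfold Ex.evR rv zv
    norm_num)
  rw [evR_KC16] at g
  unfold RKC16 nw nr2 at g
  rw [nwx16_eq, nwy16_eq] at g
  have ey : nyy x ρ 0 0 = ρ * x := rfl
  rw [ey] at g
  have e1 : rv 281488755552256 = 3363975 / 65536 := by unfold rv zv; norm_num
  have e2 : rv 281476517068800 = 1469 / 256 := by unfold rv zv; norm_num
  have e3 : rv 281492892614656 = 273375 / 4096 := by unfold rv zv; norm_num
  have e4 : rv 281491351273472 = 61 := by unfold rv zv; norm_num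
  have e5 : rv 281495361028096 = 1215 / 16 := by unfold rv zv; norm_num
  have e6 : rv 281475245146112 = 1 := by unfold rv zv; norm_num
  rw [e1, e2, e3, e4, e5, e6] at g
  exact g

end SN

end Vale.Agent.Lib.P154
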