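import Vale.Agent.Lib.P154.SN.Step
import Vale.Agent.Lib.P154.SN.Cone

/-!
Nonreconstruction for negative eigenvalues, from the pointwise inequalities.
-/

namespace Vale.Agent.Lib.P154

namespace SN

open ST Filter Topology

lemma Gp_rev (a b c : ℝ) : Gp c b a = Gp a b c := by
  unfold Gp Gk mon; ring

lemma Hf_rev (a b c : ℝ) : Hf c b a = Hf a b c := by
  unfold Hf G1 G2 avg6; ring

lemma psiN_rev (a b c : ℝ) : psiN c b a = psiN a b c := by
  unfold psiN; rw [Hf_rev, Gp_rev]

lemma WN_rev (a b c : ℝ) : WN c b a = WN a b c := by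
  unfold WN; rw [Hf_rev, Gp_rev]

/-! ### The potential is nonnegative -/

theorem psiN_nonneg : ∀ u0 u1 u2, InT u0 u1 u2 → 0 ≤ psiN u0 u1 u2 := by
  apply sym_reduce
  · intro a b c h; rwa [psiN_swap01]
  · intro a b c h; rwa [psiN_swap12]
  · intro a b c h h1 h2
    by_cases hneg : c < 0
    · have ht := top_sorted4 (l := 0) h h1 h2 hneg le_rfl (by norm_num)
      unfold rhsP at ht
      rw [rv_CH, rv_E, rv_one] at ht
      have hX := sq3_nonneg' a b c
      have h5 : 0 ≤ (sq3 a b c) ^ 2 * ((0 * 0) * AbF ((-c) / a - rv 281475312254976) (0 * a - rv 281475089956864)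
          + ((224265 / 1048576) * (1 - 0 * 0))
            * (BbF ((-c) / a - rv 281475312254976) (0 * a - rv 281475089956864)
              * BbF ((-c) / a - rv 281475312254976) (0 * a - rv 281475089956864)) + 1 / 4096) := by
        apply mul_nonneg (sq_nonneg _)
        have e := mul_self_nonneg (BbF ((-c) / a - rv 281475312254976) (0 * a - rv 281475089956864))
        have e' := mul_nonneg (by norm_num : (0 : ℝ) ≤ 224265 / 1048576) e
        linarith
      linarith
    · obtain ⟨e0, e1, e2⟩ := zero_of_sorted h h1 h2 hneg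
      subst e0 e1 e2
      unfold psiN
      rw [values_zero.1, values_zero.2]
      norm_num

/-! ### The scaled point -/

section neg

variable {lam : ℝ}

lemma InT_neg (h0 : -(1 / 2) ≤ lam) (h1 : lam < 0) {u0 u1 u2 : ℝ} (hT : InT u0 u1 u2) :
    InT (lam * u2) (lam * u1) (lam * u0) := by
  obtain ⟨hs, a0, a1, a2⟩ := InT_scale h0 (by linarith) hT
  exact ⟨by linarith, a2, a1, a0⟩

lemma neg_bounds (h1 : lam < 0) {u : ℝ} (hu : -1 ≤ u) (hu2 : u ≤ 2) : lam * u ≤ -lam ∧ -(lam * u) ≤ -(2 * lam) := by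
  constructor <;> nlinarith

lemma coord_le_two {u0 u1 u2 : ℝ} (hT : InT u0 u1 u2) : u0 ≤ 2 ∧ u1 ≤ 2 ∧ u2 ≤ 2 := by
  obtain ⟨hs, a0, a1, a2⟩ := hT
  refine ⟨by linarith, by linarith, by linarith⟩

/-- The hull estimates at the scaled point. -/
lemma hull_neg (h0 : -(6691 / 16384) ≤ lam) (h1 : lam < 0) :
    ∀ u0 u1 u2, InT u0 u1 u2 →
      (2117745 / 32768) * (1 - Gp (lam * u0) (lam * u1) (lam * u2)) ≤ Hf (lam * u0) (lam * u1) (lam * u2) ∧
      Hf (lam * u0) (lam * u1) (lam * u2) ≤ (278235 / 4096) * (1 - Gp (lam * u0) (lam * u1) (lam * u2)) ∧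
      1 - Gp (lam * u0) (lam * u1) (lam * u2) ≤ 147 / 512 := by
  intro u0 u1 u2 hT
  have hTw := InT_scale (by linarith : -(1 / 2) ≤ lam) (by linarith : lam ≤ 1) hT
  obtain ⟨c0, c1, c2⟩ := coord_le_two hT
  have b0 := neg_bounds h1 hT.2.1 c0
  have b1 := neg_bounds h1 hT.2.2.1 c1
  have b2 := neg_bounds h1 hT.2.2.2 c2
  apply hull_all _ _ _ hTw
  · exact ⟨by linarith [b0.1], by linarith [b1.1], by linarith [b2.1]⟩
  · exact ⟨by linarith [b0.2], by linarith [b1.2], by linarith [b2.2]⟩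

/-- The auxiliary function is nonnegative and bounded at the scaled point. -/
lemma W_neg (h0 : -(6691 / 16384) ≤ lam) (h1 : lam < 0) {u0 u1 u2 : ℝ} (hT : InT u0 u1 u2) :
    0 ≤ WN (lam * u0) (lam * u1) (lam * u2) ∧ WN (lam * u0) (lam * u1) (lam * u2) ≤ 2 := by
  obtain ⟨a1, a2, a3⟩ := hull_neg h0 h1 u0 u1 u2 hT
  have hTw := InT_scale (by linarith : -(1 / 2) ≤ lam) (by linarith : lam ≤ 1) hT
  have a4 := Gp_le_one hTw
  unfold WN
  constructor <;> nlinarith

/-- The upper bounds at the scaled point of a sorted point. -/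
lemma up_neg (h0 : -(6691 / 16384) ≤ lam) (h1 : lam < 0) {u0 u1 u2 : ℝ} (hT : InT u0 u1 u2) (h01 : u1 ≤ u0)
    (h12 : u2 ≤ u1) (hneg : u2 < 0) :
    psiN (lam * u0) (lam * u1) (lam * u2) - lam ^ 2 * sq3 u0 u1 u2
        ≤ (lam ^ 2 * sq3 u0 u1 u2) ^ 2
          * AbF ((-u2) / u0 - rv 281475312254976) (-lam * u0 - rv 281475089956864) ∧
      WN (lam * u0) (lam * u1) (lam * u2)
        ≤ lam ^ 2 * sq3 u0 u1 u2 * BbF ((-u2) / u0 - rv 281475312254976) (-lam * u0 - rv 281475089956864) := by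
  have hs := hT.1
  have hu0 : 0 < u0 := by linarith
  obtain ⟨c0, _, _⟩ := coord_le_two hT
  have hTw := InT_neg (by linarith : -(1 / 2) ≤ lam) h1 hT
  have hm2 := hT.2.2.2
  obtain ⟨g1, g2⟩ := up_sorted hTw (by nlinarith) (by nlinarith) (mul_neg_of_neg_of_pos h1 hu0)
    (by nlinarith) (by nlinarith)
  have ea : lam * u2 / (-(lam * u0)) = (-u2) / u0 := by
    have hne : lam ≠ 0 := h1.ne
    have hne0 : u0 ≠ 0 := hu0.ne'
    field_simp
  have eX : sq3 (lam * u2) (lam * u1) (lam * u0) = lam ^ 2 * sq3 u0 u1 u2 := by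
    unfold sq3; ring
  have et : -(lam * u0) = -lam * u0 := by ring
  rw [ea, eX, et, psiN_rev] at g1
  rw [ea, eX, et, WN_rev] at g2
  exact ⟨g1, g2⟩

end neg

/-! ### The second order term, by algebra -/

lemma cone_plain (d : ℕ) {x y : ℝ} (h2 : y ≤ (278235 / 4096) * x) (h3 : 0 ≤ x) (h4 : x ≤ 147 / 512) :
    61 * ((1 - x) ^ d - 1 + d * x) - (1215 / 16) * ((1 - y * (16 / 1215)) ^ d - 1 + d * (y * (16 / 1215)))
      ≤ Fq (CHv * d * (d - 1)) 0 (61 * x - (225 / 256) * y) := by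
  have e0 : Fq (CHv * d * (d - 1)) 0 (61 * x - (225 / 256) * y)
      = CHv * d * (d - 1) * (61 * x - (225 / 256) * y) ^ 2 := by
    unfold Fq; simp
  rw [e0, Rd_eq, Rd_eq]
  set z := y * (16 / 1215) with hz
  have hy : y = (1215 / 16) * z := by rw [hz]; ring
  have hzx : z ≤ x := by
    rw [hz]; nlinarith
  have hx1 : x ≤ 1 := by linarith
  have w0 := wd_nonneg d hx1
  have w1 := wd_anti d hzx hx1
  have w2 := wd_le d h3 hx1
  have h5 : 61 * (x ^ 2 * wd d x) - (1215 / 16) * (z ^ 2 * wd d z) ≤ wd d x * (61 * x ^ 2 - (1215 / 16) * z ^ 2) := by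
    nlinarith [mul_le_mul_of_nonneg_left w1 (sq_nonneg z)]
  have h6 : 61 * x ^ 2 - (1215 / 16) * z ^ 2 ≤ (2 * CHv) * (61 * x - (225 / 256) * y) ^ 2 := by
    rw [hy]
    unfold CHv
    nlinarith [sq_nonneg ((802508497 / 524288) * x + (-3739815106875 / 2147483648) * z), sq_nonneg z]
  have h7 : 0 ≤ (2 * CHv) * (61 * x - (225 / 256) * y) ^ 2 := by
    unfold CHv; positivity
  have h8 := mul_le_mul_of_nonneg_left h6 w0
  have h9 := mul_le_mul_of_nonneg_right w2 h7
  nlinarith

lemma cone_of {x ρ cc β wx wy w : ℝ} (hx : 0 ≤ x) (hw : 0 ≤ w) (hβ : 0 ≤ β)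
    (g : 0 ≤ cc * (w * w) - (1 + β * (x * w)) * (61 * wx - (1215 / 16) * ((ρ * ρ) * wy))) :
    61 * (x ^ 2 * wx) - (1215 / 16) * ((ρ * x) ^ 2 * wy) ≤ Fq cc β (x * w) := by
  have hp : 0 < 1 + β * (x * w) := by positivity
  unfold Fq
  rw [le_div_iff₀ hp]
  have := mul_nonneg (sq_nonneg x) g
  have e : cc * (x * w) ^ 2 - (61 * (x ^ 2 * wx) - (1215 / 16) * ((ρ * x) ^ 2 * wy)) * (1 + β * (x * w))
      = x ^ 2 * (cc * (w * w) - (1 + β * (x * w)) * (61 * wx - (1215 / 16) * ((ρ * ρ) * wy))) := by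
    ring
  linarith

lemma cone_rat {d : ℕ} (hd3 : 3 ≤ d) (hd16 : d ≤ 16) {x y : ℝ} (h1 : (2117745 / 32768) * x ≤ y)
    (h2 : y ≤ (278235 / 4096) * x) (h3 : 0 ≤ x) (h4 : x ≤ 147 / 512) :
    61 * ((1 - x) ^ d - 1 + d * x) - (1215 / 16) * ((1 - y * (16 / 1215)) ^ d - 1 + d * (y * (16 / 1215)))
      ≤ Fq (CHv * d * (d - 1)) (5 / 64 + 207 / 512 * ((d : ℝ) - 2)) (61 * x - (225 / 256) * y) := by
  rcases h3.eq_or_lt with e | hx
  · subst e
    have hy : y = 0 := by linarith
    subst hy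
    simp [Fq]
  · set ρ := (y * (16 / 1215)) / x with hρ
    have hy : y * (16 / 1215) = ρ * x := by
      rw [hρ]; field_simp
    have hρ1 : 1743 / 2048 ≤ ρ := by
      rw [hρ, le_div_iff₀ hx]; linarith
    have hρ2 : ρ ≤ 229 / 256 := by
      rw [hρ, div_le_iff₀ hx]; linarith
    have eW : 61 * x - (225 / 256) * y = x * (61 - (273375 / 4096) * ρ) := by
      have : y = (1215 / 16) * (ρ * x) := by rw [← hy]; ring
      rw [this]; ring
    have hw0 : 0 ≤ 61 - (273375 / 4096) * ρ := by linarith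
    rw [eW, hy, Rd_eq, Rd_eq]
    interval_cases d
    · have := cone_of hx.le hw0 (by norm_num) (coneK3 hx.le h4 hρ1 hρ2)
      convert this using 2 <;> (try unfold CHv) <;> norm_num
    · have := cone_of hx.le hw0 (by norm_num) (coneK4 hx.le h4 hρ1 hρ2)
      convert this using 2 <;> (try unfold CHv) <;> norm_num
    · have := cone_of hx.le hw0 (by norm_num) (coneK5 hx.le h4 hρ1 hρ2)
      convert this using 2 <;> (try unfold CHv) <;> norm_num
    · have := cone_of hx.le hw0 (by norm_num) (coneK6 hx.le h4 hρ1 hρ2)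
      convert this using 2 <;> (try unfold CHv) <;> norm_num
    · have := cone_of hx.le hw0 (by norm_num) (coneK7 hx.le h4 hρ1 hρ2)
      convert this using 2 <;> (try unfold CHv) <;> norm_num
    · have := cone_of hx.le hw0 (by norm_num) (coneK8 hx.le h4 hρ1 hρ2)
      convert this using 2 <;> (try unfold CHv) <;> norm_num
    · have := cone_of hx.le hw0 (by norm_num) (coneK9 hx.le h4 hρ1 hρ2)
      convert this using 2 <;> (try unfold CHv) <;> norm_num
    · have := cone_of hx.le hw0 (by norm_num) (coneK10 hx.le h4 hρ1 hρ2)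
      convert this using 2 <;> (try unfold CHv) <;> norm_num
    · have := cone_of hx.le hw0 (by norm_num) (coneK11 hx.le h4 hρ1 hρ2)
      convert this using 2 <;> (try unfold CHv) <;> norm_num
    · have := cone_of hx.le hw0 (by norm_num) (coneK12 hx.le h4 hρ1 hρ2)
      convert this using 2 <;> (try unfold CHv) <;> norm_num
    · have := cone_of hx.le hw0 (by norm_num) (coneK13 hx.le h4 hρ1 hρ2)
      convert this using 2 <;> (try unfold CHv) <;> norm_num
    · have := cone_of hx.le hw0 (by norm_num) (coneK14 hx.le h4 hρ1 hρ2)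
      convert this using 2 <;> (try unfold CHv) <;> norm_num
    · have := cone_of hx.le hw0 (by norm_num) (coneK15 hx.le h4 hρ1 hρ2)
      convert this using 2 <;> (try unfold CHv) <;> norm_num
    · have := cone_of hx.le hw0 (by norm_num) (coneK16 hx.le h4 hρ1 hρ2)
      convert this using 2 <;> (try unfold CHv) <;> norm_num

/-! ### The pointwise inequalities -/

section pw

variable {lam : ℝ}

theorem pw_plain {d : ℕ} (hd : 1 ≤ d) (h0 : -(1 / 4) ≤ lam) (h1 : lam < 0) (hdl : (d : ℝ) * lam ^ 2 ≤ 1) :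
    ∀ u0 u1 u2, InT u0 u1 u2 →
      d * psiN (lam * u0) (lam * u1) (lam * u2) + Fq (CHv * d * (d - 1)) 0 (WN (lam * u0) (lam * u1) (lam * u2))
        + (1 / 4096) * (sq3 u0 u1 u2) ^ 2 ≤ psiN u0 u1 u2 := by
  have hd1 : (1 : ℝ) ≤ d := by exact_mod_cast hd
  have h0' : -(6691 / 16384) ≤ lam := by linarith
  apply sym_reduce
  · intro a b c h
    rw [psiN_swap01 a b c, psiN_swap01 (lam * a) (lam * b) (lam * c), WN_swap01 (lam * a) (lam * b) (lam * c),
      sq3_swap01 a b c]
    exact h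
  · intro a b c h
    rw [psiN_swap12 a b c, psiN_swap12 (lam * a) (lam * b) (lam * c), WN_swap12 (lam * a) (lam * b) (lam * c),
      sq3_swap12 a b c]
    exact h
  · intro a b c hT h2 h3
    by_cases hneg : c < 0
    · obtain ⟨g1, g2⟩ := up_neg h0' h1 hT h2 h3 hneg
      have ht := top_sorted4 (l := -lam) hT h2 h3 hneg (by linarith) (by linarith)
      unfold rhsP at ht
      rw [rv_CH, rv_E, rv_one] at ht
      have hTw := InT_scale (by linarith : -(1 / 2) ≤ lam) (by linarith : lam ≤ 1) hT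
      have e2 : (-lam) ^ 2 = lam ^ 2 := by ring
      have := pw_core_plain (l := -lam) (d := (d : ℝ)) (X := sq3 a b c) (E := 1 / 4096)
        (A := AbF ((-c) / a - rv 281475312254976) (-lam * a - rv 281475089956864))
        (B := BbF ((-c) / a - rv 281475312254976) (-lam * a - rv 281475089956864))
        (by linarith) hd1 (by rw [e2]; exact hdl) (sq3_nonneg' a b c)
        (psiN_nonneg _ _ _ hTw) (W_neg h0' h1 hT).1 (by rw [e2]; exact g1) (by rw [e2]; exact g2)
        (by unfold CHv; exact ht)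
      exact this
    · obtain ⟨e0, e1, e2⟩ := zero_of_sorted hT h2 h3 hneg
      subst e0 e1 e2
      simp only [mul_zero]
      unfold psiN WN sq3 Fq
      rw [values_zero.1, values_zero.2]
      norm_num

theorem pw_rat {d : ℕ} (hd : 3 ≤ d) (h0 : -(6691 / 16384) ≤ lam) (h1 : lam ≤ -(1 / 4)) (hdl : (d : ℝ) * lam ^ 2 ≤ 1) :
    ∀ u0 u1 u2, InT u0 u1 u2 →
      d * psiN (lam * u0) (lam * u1) (lam * u2)
        + Fq (CHv * d * (d - 1)) (5 / 64 + 207 / 512 * ((d : ℝ) - 2)) (WN (lam * u0) (lam * u1) (lam * u2))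
        + (1 / 4096) * (sq3 u0 u1 u2) ^ 2 ≤ psiN u0 u1 u2 := by
  have hd1 : (3 : ℝ) ≤ d := by exact_mod_cast hd
  have h1' : lam < 0 := by linarith
  apply sym_reduce
  · intro a b c h
    rw [psiN_swap01 a b c, psiN_swap01 (lam * a) (lam * b) (lam * c), WN_swap01 (lam * a) (lam * b) (lam * c),
      sq3_swap01 a b c]
    exact h
  · intro a b c h
    rw [psiN_swap12 a b c, psiN_swap12 (lam * a) (lam * b) (lam * c), WN_swap12 (lam * a) (lam * b) (lam * c),
      sq3_swap12 a b c]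
    exact h
  · intro a b c hT h2 h3
    by_cases hneg : c < 0
    · obtain ⟨g1, g2⟩ := up_neg h0 h1' hT h2 h3 hneg
      have ht := top_sorted5 (l := -lam) hT h2 h3 hneg (by linarith) (by linarith)
      unfold rhsR at ht
      rw [rv_CH, rv_E, rv_one, rv_B0, rv_B1, rv_two] at ht
      have hTw := InT_scale (by linarith : -(1 / 2) ≤ lam) (by linarith : lam ≤ 1) hT
      have e2 : (-lam) ^ 2 = lam ^ 2 := by ring
      have hW := W_neg h0 h1' hT
      have := pw_core_rat (l := -lam) (d := (d : ℝ)) (X := sq3 a b c) (E := 1 / 4096) (Wm := 2)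
        (b0 := 5 / 64) (b1 := 207 / 512)
        (A := AbF ((-c) / a - rv 281475312254976) (-lam * a - rv 281475089956864))
        (B := BbF ((-c) / a - rv 281475312254976) (-lam * a - rv 281475089956864))
        (by linarith) (by linarith) (by rw [e2]; exact hdl) (by nlinarith) (sq3_nonneg' a b c)
        (by norm_num) (by norm_num)
        (psiN_nonneg _ _ _ hTw) hW.1 (by rw [e2]; exact g1) (by rw [e2]; exact g2) hW.2 (by norm_num)
        (by unfold CHv; exact ht)
      exact this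
    · obtain ⟨e0, e1, e2⟩ := zero_of_sorted hT h2 h3 hneg
      subst e0 e1 e2
      simp only [mul_zero]
      unfold psiN WN sq3 Fq
      rw [values_zero.1, values_zero.2]
      norm_num

end pw

/-! ### Nonreconstruction -/

section main

variable {lam : ℝ}

theorem nonrec_plain {d : ℕ} (hd : 1 ≤ d) (h0 : -(1 / 4) ≤ lam) (h1 : lam < 0) (hdl : (d : ℝ) * lam ^ 2 ≤ 1) :
    Tendsto (fun n => reconstructionGap 3 d lam n) atTop (𝓝 0) := by
  have hd1 : (1 : ℝ) ≤ d := by exact_mod_cast hd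
  have h0' : -(6691 / 16384) ≤ lam := by linarith
  have hl1 : -(1 / 2) ≤ lam := by linarith
  have hl2 : lam ≤ 1 := by linarith
  apply gap_of_step hl1 hl2 (ε := 1 / 4096) (by norm_num) psiN_nonneg
  apply step_gen hl1 hl2 (c := CHv * d * (d - 1)) (β := 0) (ρ1 := 2117745 / 32768) (ρ2 := 278235 / 4096)
    (xm := 147 / 512) ?_ le_rfl (by norm_num) (by norm_num) (by norm_num) (hull_neg h0' h1)
    (fun x y _ h2 h3 h4 => cone_plain d h2 h3 h4) (pw_plain hd h0 h1 hdl)
  have : 0 ≤ CHv := by unfold CHv; norm_num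
  exact mul_nonneg (mul_nonneg this (by linarith)) (by linarith)

theorem nonrec_rat {d : ℕ} (hd : 3 ≤ d) (h0 : -(6691 / 16384) ≤ lam) (h1 : lam ≤ -(1 / 4)) (hdl : (d : ℝ) * lam ^ 2 ≤ 1) :
    Tendsto (fun n => reconstructionGap 3 d lam n) atTop (𝓝 0) := by
  have hd1 : (3 : ℝ) ≤ d := by exact_mod_cast hd
  have hl1 : -(1 / 2) ≤ lam := by linarith
  have hl2 : lam ≤ 1 := by linarith
  have h1' : lam < 0 := by linarith
  have hd16 : d ≤ 16 := by
    by_contra hc
    have hc' : (17 : ℝ) ≤ d := by exact_mod_cast not_le.1 hc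
    nlinarith
  apply gap_of_step hl1 hl2 (ε := 1 / 4096) (by norm_num) psiN_nonneg
  apply step_gen hl1 hl2 (c := CHv * d * (d - 1)) (β := 5 / 64 + 207 / 512 * ((d : ℝ) - 2))
    (ρ1 := 2117745 / 32768) (ρ2 := 278235 / 4096)
    (xm := 147 / 512) ?_ ?_ (by norm_num) (by norm_num) (by norm_num) (hull_neg h0 h1')
    (fun x y h1 h2 h3 h4 => cone_rat hd hd16 h1 h2 h3 h4) (pw_rat hd h0 h1 hdl)
  · have : 0 ≤ CHv := by unfold CHv; norm_num
    exact mul_nonneg (mul_nonneg this (by linarith)) (by linarith)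
  · have : 0 ≤ 207 / 512 * ((d : ℝ) - 2) := mul_nonneg (by norm_num) (by linarith)
    linarith

/-- Nonreconstruction for the three-state Potts channel with a negative eigenvalue, at most
`6691 / 16384` in absolute value (this is more than `1 / sqrt 6`), up to the Kesten-Stigum bound. -/
theorem nonrec_neg {d : ℕ} (hd : 2 ≤ d) (h0 : -(6691 / 16384) ≤ lam) (h1 : lam < 0) (hdl : (d : ℝ) * lam ^ 2 ≤ 1) :
    Tendsto (fun n => reconstructionGap 3 d lam n) atTop (𝓝 0) := by
  rcases le_or_gt (-(1 / 4)) lam with hl | hl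
  · exact nonrec_plain (by omega) hl h1 hdl
  · rcases (by omega : d = 2 ∨ 3 ≤ d) with e | hd3
    · subst e
      exact gap_tendsto_neg (by linarith) h1.le
    · exact nonrec_rat hd3 h0 hl.le hdl

end main

end SN

end Vale.Agent.Lib.P154
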