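import Vale.Agent.Lib.P154.SN.RealDefs
import Vale.Agent.Lib.P154.SN.Poly
import Vale.Agent.Lib.P154.ST.Lyap

/-! Identities for the real values of the programs. -/

namespace Vale.Agent.Lib.P154

namespace SN

open ST

set_option linter.unusedSimpArgs false in
set_option maxHeartbeats 4000000 in
theorem cS_eq (r b l u : ℝ) : cS r b l u = Sy (1 + r * b) (1 + r * (1 - b)) (1 - r) := by
  simp only [cS , cts , cst , cg4 , cg3 , cg2 , cg , ch3 , ch2 , ch, Sy, m1y, m2y, e3y, Lpn, Wnn, Nxy, Hny, Hpn, rv, zv]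
  push_cast
  ring

set_option linter.unusedSimpArgs false in
set_option maxHeartbeats 4000000 in
theorem cP0_eq (r b l u : ℝ) : r * cP0 r b l u = 3 * (1 + r * b) ^ 9 - Sy (1 + r * b) (1 + r * (1 - b)) (1 - r) := by
  simp only [cP0 , cts , cst , cg4 , cg3 , cg2 , cg , ch3 , ch2 , ch , cD0 , cy0, Sy, m1y, m2y, e3y, Lpn, Wnn, Nxy, Hny, Hpn, rv, zv]
  push_cast
  ring

set_option linter.unusedSimpArgs false in
set_option maxHeartbeats 4000000 in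
theorem cP1_eq (r b l u : ℝ) : r * cP1 r b l u = 3 * (1 + r * (1 - b)) ^ 9 - Sy (1 + r * b) (1 + r * (1 - b)) (1 - r) := by
  simp only [cP1 , cts , cst , cg4 , cg3 , cg2 , cg , ch3 , ch2 , ch , cD1 , cy1, Sy, m1y, m2y, e3y, Lpn, Wnn, Nxy, Hny, Hpn, rv, zv]
  push_cast
  ring

set_option linter.unusedSimpArgs false in
set_option maxHeartbeats 4000000 in
theorem cPt_eq (r b l u : ℝ) : r * cPt r b l u = Sy (1 + r * b) (1 + r * (1 - b)) (1 - r) - 3 * (1 - r) ^ 9 := by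
  simp only [cPt , cts , cst , cg4 , cg3 , cg2 , cg , ch3 , ch2 , ch , cD2 , cy2, Sy, m1y, m2y, e3y, Lpn, Wnn, Nxy, Hny, Hpn, rv, zv]
  push_cast
  ring

set_option linter.unusedSimpArgs false in
set_option maxHeartbeats 4000000 in
theorem cMt_eq (r b l u : ℝ) : r ^ 4 * (65536 * cMt r b l u) = Sy (1 + r * b) (1 + r * (1 - b)) (1 - r) * Lpn (1 + r * b) (1 + r * (1 - b)) (1 - r) - Nxy (1 + r * b) (1 + r * (1 - b)) (1 - r) := by
  simp only [cMt , cg9 , cg8 , cg7 , cg6 , cg5 , cg4 , cg3 , cg2 , cg , ch6 , ch5 , ch4 , ch3 , ch2 , ch, Sy, m1y, m2y, e3y, Lpn, Wnn, Nxy, Hny, Hpn, rv, zv]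
  push_cast
  ring

set_option linter.unusedSimpArgs false in
set_option maxHeartbeats 4000000 in
theorem cWt_eq (r b l u : ℝ) : r ^ 2 * cWt r b l u = Wnn (1 + r * b) (1 + r * (1 - b)) (1 - r) := by
  simp only [cWt , cg4 , cg3 , cg2 , cg , ch3 , ch2 , ch, Sy, m1y, m2y, e3y, Lpn, Wnn, Nxy, Hny, Hpn, rv, zv]
  push_cast
  ring

set_option linter.unusedSimpArgs false in
set_option maxHeartbeats 4000000 in
theorem cHq_eq (r b l u : ℝ) : r ^ 2 * (256 * cHq r b l u) = Hny (1 + r * b) (1 + r * (1 - b)) (1 - r) := by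
  simp only [cHq , cg4 , cg3 , cg2 , cg , ch3 , ch2 , ch, Sy, m1y, m2y, e3y, Lpn, Wnn, Nxy, Hny, Hpn, rv, zv]
  push_cast
  ring

set_option linter.unusedSimpArgs false in
set_option maxHeartbeats 4000000 in
theorem cHp_eq (r b l u : ℝ) : r ^ 2 * cHp r b l u = Hpn (1 + r * b) (1 + r * (1 - b)) (1 - r) := by
  simp only [cHp , cg4 , ch2 , cg3 , cg2 , cg , ch, Sy, m1y, m2y, e3y, Lpn, Wnn, Nxy, Hny, Hpn, rv, zv]
  push_cast
  ring

theorem cNn_eq (r b l u : ℝ) : cNn r b l u = (cP0 r b l u ^ 2 + cP1 r b l u ^ 2 + cPt r b l u ^ 2) / 256 := by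
  simp only [cNn, cn0, cn1, cn2, rv, zv]
  push_cast
  ring

theorem nwx3_eq (r b l u : ℝ) : nwx3 r b l u = wd 3 (r) := by
  have e : wd 3 (r) = (1 - (r)) * wd 2 (r) + ((2 : ℕ) : ℝ) := rfl
  have e2 : wd 2 (r) = 1 := by simp [wd]
  rw [e, e2]
  simp only [nwx3, nyy, rv, zv]
  push_cast
  ring

theorem nwx4_eq (r b l u : ℝ) : nwx4 r b l u = wd 4 (r) := by
  have e : wd 4 (r) = (1 - (r)) * wd 3 (r) + ((3 : ℕ) : ℝ) := rfl
  rw [e, ← nwx3_eq r b l u]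
  simp only [nwx4, nyy, rv, zv]
  push_cast
  ring

theorem nwx5_eq (r b l u : ℝ) : nwx5 r b l u = wd 5 (r) := by
  have e : wd 5 (r) = (1 - (r)) * wd 4 (r) + ((4 : ℕ) : ℝ) := rfl
  rw [e, ← nwx4_eq r b l u]
  simp only [nwx5, nyy, rv, zv]
  push_cast
  ring

theorem nwx6_eq (r b l u : ℝ) : nwx6 r b l u = wd 6 (r) := by
  have e : wd 6 (r) = (1 - (r)) * wd 5 (r) + ((5 : ℕ) : ℝ) := rfl
  rw [e, ← nwx5_eq r b l u]
  simp only [nwx6, nyy, rv, zv]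
  push_cast
  ring

theorem nwx7_eq (r b l u : ℝ) : nwx7 r b l u = wd 7 (r) := by
  have e : wd 7 (r) = (1 - (r)) * wd 6 (r) + ((6 : ℕ) : ℝ) := rfl
  rw [e, ← nwx6_eq r b l u]
  simp only [nwx7, nyy, rv, zv]
  push_cast
  ring

theorem nwx8_eq (r b l u : ℝ) : nwx8 r b l u = wd 8 (r) := by
  have e : wd 8 (r) = (1 - (r)) * wd 7 (r) + ((7 : ℕ) : ℝ) := rfl
  rw [e, ← nwx7_eq r b l u]
  simp only [nwx8, nyy, rv, zv]
  push_cast
  ring

theorem nwx9_eq (r b l u : ℝ) : nwx9 r b l u = wd 9 (r) := by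
  have e : wd 9 (r) = (1 - (r)) * wd 8 (r) + ((8 : ℕ) : ℝ) := rfl
  rw [e, ← nwx8_eq r b l u]
  simp only [nwx9, nyy, rv, zv]
  push_cast
  ring

theorem nwx10_eq (r b l u : ℝ) : nwx10 r b l u = wd 10 (r) := by
  have e : wd 10 (r) = (1 - (r)) * wd 9 (r) + ((9 : ℕ) : ℝ) := rfl
  rw [e, ← nwx9_eq r b l u]
  simp only [nwx10, nyy, rv, zv]
  push_cast
  ring

theorem nwx11_eq (r b l u : ℝ) : nwx11 r b l u = wd 11 (r) := by
  have e : wd 11 (r) = (1 - (r)) * wd 10 (r) + ((10 : ℕ) : ℝ) := rfl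
  rw [e, ← nwx10_eq r b l u]
  simp only [nwx11, nyy, rv, zv]
  push_cast
  ring

theorem nwx12_eq (r b l u : ℝ) : nwx12 r b l u = wd 12 (r) := by
  have e : wd 12 (r) = (1 - (r)) * wd 11 (r) + ((11 : ℕ) : ℝ) := rfl
  rw [e, ← nwx11_eq r b l u]
  simp only [nwx12, nyy, rv, zv]
  push_cast
  ring

theorem nwx13_eq (r b l u : ℝ) : nwx13 r b l u = wd 13 (r) := by
  have e : wd 13 (r) = (1 - (r)) * wd 12 (r) + ((12 : ℕ) : ℝ) := rfl
  rw [e, ← nwx12_eq r b l u]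
  simp only [nwx13, nyy, rv, zv]
  push_cast
  ring

theorem nwx14_eq (r b l u : ℝ) : nwx14 r b l u = wd 14 (r) := by
  have e : wd 14 (r) = (1 - (r)) * wd 13 (r) + ((13 : ℕ) : ℝ) := rfl
  rw [e, ← nwx13_eq r b l u]
  simp only [nwx14, nyy, rv, zv]
  push_cast
  ring

theorem nwx15_eq (r b l u : ℝ) : nwx15 r b l u = wd 15 (r) := by
  have e : wd 15 (r) = (1 - (r)) * wd 14 (r) + ((14 : ℕ) : ℝ) := rfl
  rw [e, ← nwx14_eq r b l u]
  simp only [nwx15, nyy, rv, zv]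
  push_cast
  ring

theorem nwx16_eq (r b l u : ℝ) : nwx16 r b l u = wd 16 (r) := by
  have e : wd 16 (r) = (1 - (r)) * wd 15 (r) + ((15 : ℕ) : ℝ) := rfl
  rw [e, ← nwx15_eq r b l u]
  simp only [nwx16, nyy, rv, zv]
  push_cast
  ring

theorem nwy3_eq (r b l u : ℝ) : nwy3 r b l u = wd 3 (nyy r b l u) := by
  have e : wd 3 (nyy r b l u) = (1 - (nyy r b l u)) * wd 2 (nyy r b l u) + ((2 : ℕ) : ℝ) := rfl
  have e2 : wd 2 (nyy r b l u) = 1 := by simp [wd]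
  rw [e, e2]
  simp only [nwy3, nyy, rv, zv]
  push_cast
  ring

theorem nwy4_eq (r b l u : ℝ) : nwy4 r b l u = wd 4 (nyy r b l u) := by
  have e : wd 4 (nyy r b l u) = (1 - (nyy r b l u)) * wd 3 (nyy r b l u) + ((3 : ℕ) : ℝ) := rfl
  rw [e, ← nwy3_eq r b l u]
  simp only [nwy4, nyy, rv, zv]
  push_cast
  ring

theorem nwy5_eq (r b l u : ℝ) : nwy5 r b l u = wd 5 (nyy r b l u) := by
  have e : wd 5 (nyy r b l u) = (1 - (nyy r b l u)) * wd 4 (nyy r b l u) + ((4 : ℕ) : ℝ) := rfl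
  rw [e, ← nwy4_eq r b l u]
  simp only [nwy5, nyy, rv, zv]
  push_cast
  ring

theorem nwy6_eq (r b l u : ℝ) : nwy6 r b l u = wd 6 (nyy r b l u) := by
  have e : wd 6 (nyy r b l u) = (1 - (nyy r b l u)) * wd 5 (nyy r b l u) + ((5 : ℕ) : ℝ) := rfl
  rw [e, ← nwy5_eq r b l u]
  simp only [nwy6, nyy, rv, zv]
  push_cast
  ring

theorem nwy7_eq (r b l u : ℝ) : nwy7 r b l u = wd 7 (nyy r b l u) := by
  have e : wd 7 (nyy r b l u) = (1 - (nyy r b l u)) * wd 6 (nyy r b l u) + ((6 : ℕ) : ℝ) := rfl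
  rw [e, ← nwy6_eq r b l u]
  simp only [nwy7, nyy, rv, zv]
  push_cast
  ring

theorem nwy8_eq (r b l u : ℝ) : nwy8 r b l u = wd 8 (nyy r b l u) := by
  have e : wd 8 (nyy r b l u) = (1 - (nyy r b l u)) * wd 7 (nyy r b l u) + ((7 : ℕ) : ℝ) := rfl
  rw [e, ← nwy7_eq r b l u]
  simp only [nwy8, nyy, rv, zv]
  push_cast
  ring

theorem nwy9_eq (r b l u : ℝ) : nwy9 r b l u = wd 9 (nyy r b l u) := by
  have e : wd 9 (nyy r b l u) = (1 - (nyy r b l u)) * wd 8 (nyy r b l u) + ((8 : ℕ) : ℝ) := rfl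
  rw [e, ← nwy8_eq r b l u]
  simp only [nwy9, nyy, rv, zv]
  push_cast
  ring

theorem nwy10_eq (r b l u : ℝ) : nwy10 r b l u = wd 10 (nyy r b l u) := by
  have e : wd 10 (nyy r b l u) = (1 - (nyy r b l u)) * wd 9 (nyy r b l u) + ((9 : ℕ) : ℝ) := rfl
  rw [e, ← nwy9_eq r b l u]
  simp only [nwy10, nyy, rv, zv]
  push_cast
  ring

theorem nwy11_eq (r b l u : ℝ) : nwy11 r b l u = wd 11 (nyy r b l u) := by
  have e : wd 11 (nyy r b l u) = (1 - (nyy r b l u)) * wd 10 (nyy r b l u) + ((10 : ℕ) : ℝ) := rfl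
  rw [e, ← nwy10_eq r b l u]
  simp only [nwy11, nyy, rv, zv]
  push_cast
  ring

theorem nwy12_eq (r b l u : ℝ) : nwy12 r b l u = wd 12 (nyy r b l u) := by
  have e : wd 12 (nyy r b l u) = (1 - (nyy r b l u)) * wd 11 (nyy r b l u) + ((11 : ℕ) : ℝ) := rfl
  rw [e, ← nwy11_eq r b l u]
  simp only [nwy12, nyy, rv, zv]
  push_cast
  ring

theorem nwy13_eq (r b l u : ℝ) : nwy13 r b l u = wd 13 (nyy r b l u) := by
  have e : wd 13 (nyy r b l u) = (1 - (nyy r b l u)) * wd 12 (nyy r b l u) + ((12 : ℕ) : ℝ) := rfl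
  rw [e, ← nwy12_eq r b l u]
  simp only [nwy13, nyy, rv, zv]
  push_cast
  ring

theorem nwy14_eq (r b l u : ℝ) : nwy14 r b l u = wd 14 (nyy r b l u) := by
  have e : wd 14 (nyy r b l u) = (1 - (nyy r b l u)) * wd 13 (nyy r b l u) + ((13 : ℕ) : ℝ) := rfl
  rw [e, ← nwy13_eq r b l u]
  simp only [nwy14, nyy, rv, zv]
  push_cast
  ring

theorem nwy15_eq (r b l u : ℝ) : nwy15 r b l u = wd 15 (nyy r b l u) := by
  have e : wd 15 (nyy r b l u) = (1 - (nyy r b l u)) * wd 14 (nyy r b l u) + ((14 : ℕ) : ℝ) := rfl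
  rw [e, ← nwy14_eq r b l u]
  simp only [nwy15, nyy, rv, zv]
  push_cast
  ring

theorem nwy16_eq (r b l u : ℝ) : nwy16 r b l u = wd 16 (nyy r b l u) := by
  have e : wd 16 (nyy r b l u) = (1 - (nyy r b l u)) * wd 15 (nyy r b l u) + ((15 : ℕ) : ℝ) := rfl
  rw [e, ← nwy15_eq r b l u]
  simp only [nwy16, nyy, rv, zv]
  push_cast
  ring

end SN

end Vale.Agent.Lib.P154
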