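import Vale.Agent.Lib.P154.SN.Pot
import Vale.Agent.Lib.P154.SN.RealEq
import Vale.Agent.Lib.P154.SN.TopC

/-!
The certified polynomial inequalities on the charts.
-/

namespace Vale.Agent.Lib.P154

namespace SN

open ST

lemma rv_one : rv 281475245146112 = 1 := by unfold rv zv; norm_num
lemma rv_two : rv 281475513581568 = 2 := by unfold rv zv; norm_num
lemma rv_half : rv 281475110928384 = 1 / 2 := by unfold rv zv; norm_num
lemma rv_54 : rv 281475312254976 = 5 / 4 := by unfold rv zv; norm_num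
lemma rv_Y : rv 281475089956864 = 27 / 64 := by unfold rv zv; norm_num
lemma rv_CH : rv 281475034122496 = 224265 / 1048576 := by unfold rv zv; norm_num
lemma rv_E : rv 281474976776192 = 1 / 4096 := by unfold rv zv; norm_num
lemma rv_B0 : rv 281474997682176 = 5 / 64 := by unfold rv zv; norm_num
lemma rv_B1 : rv 281475085238272 = 207 / 512 := by unfold rv zv; norm_num
lemma rv_TM : rv 281475203203072 = 27 / 32 := by unfold rv zv; norm_num
lemma rv_L : rv 281475086336000 = 6691 / 16384 := by unfold rv zv; norm_num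
lemma rv_2L : rv 281475195961344 = 6691 / 8192 := by unfold rv zv; norm_num
lemma rv_256 : rv 281543696187392 = 256 := by unfold rv zv; norm_num
lemma rv_kk : rv 281474977759232 = 1 / 256 := by unfold rv zv; norm_num
lemma rv_R1 : rv 281475044478496 = 2117745 / 8388608 := by unfold rv zv; norm_num
lemma rv_R2 : rv 281475047938816 = 278235 / 1048576 := by unfold rv zv; norm_num
lemma rv_XM : rv 281475053780992 = 147 / 512 := by unfold rv zv; norm_num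

/-- The upper bound function of the top level for small eigenvalues. -/
noncomputable def rhsP (a t l : ℝ) : ℝ :=
  (((l * l) * AbF (a - rv 281475312254976) (t - rv 281475089956864))
    + ((rv 281475034122496 * (rv 281475245146112 - (l * l)))
      * (BbF (a - rv 281475312254976) (t - rv 281475089956864)
        * BbF (a - rv 281475312254976) (t - rv 281475089956864))))
    + rv 281474976776192

/-- The upper bound function of the top level for larger eigenvalues. -/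
noncomputable def rhsR (a t l X : ℝ) : ℝ :=
  (((l * l) * AbF (a - rv 281475312254976) (t - rv 281475089956864))
    + ((rv 281475034122496 * (rv 281475245146112 - (l * l)))
      * ((BbF (a - rv 281475312254976) (t - rv 281475089956864)
        * BbF (a - rv 281475312254976) (t - rv 281475089956864))
        * (rv 281475245146112 + (((rv 281474997682176 * (l * l))
            + (rv 281475085238272 * (rv 281475245146112 - (rv 281475513581568 * (l * l)))))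
          * (BbF (a - rv 281475312254976) (t - rv 281475089956864) * X)))⁻¹)))
    + rv 281474976776192

lemma inBox_all {c0 h0 c1 h1 c2 h2 c3 h3 : ℕ} {x0 x1 x2 x3 : ℝ}
    (e0 : |x0 - rv c0| ≤ (h0 : ℝ) / 268435456) (e1 : |x1 - rv c1| ≤ (h1 : ℝ) / 268435456)
    (e2 : |x2 - rv c2| ≤ (h2 : ℝ) / 268435456) (e3 : |x3 - rv c3| ≤ (h3 : ℝ) / 268435456) :
    InBox (Bx.mk c0 h0 c1 h1 c2 h2 c3 h3) x0 x1 x2 x3 := ⟨e0, e1, e2, e3⟩

/-! ### The center chart -/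

lemma center_vals {r b l u : ℝ} (hr : 0 < r) :
    caa r b l u = (3 * (1 + r * b) ^ 9 - Sy (1 + r * b) (1 + r * (1 - b)) (1 - r))
        / (Sy (1 + r * b) (1 + r * (1 - b)) (1 - r) - 3 * (1 - r) ^ 9) ∧
      ctt r b l u = (Sy (1 + r * b) (1 + r * (1 - b)) (1 - r) - 3 * (1 - r) ^ 9)
        / Sy (1 + r * b) (1 + r * (1 - b)) (1 - r) ∧
      caq r b l u = (Sy (1 + r * b) (1 + r * (1 - b)) (1 - r) - 3 * (1 - r) ^ 9)
        / (3 * (1 + r * b) ^ 9 - Sy (1 + r * b) (1 + r * (1 - b)) (1 - r)) ∧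
      ctq r b l u = l * ((3 * (1 + r * b) ^ 9 - Sy (1 + r * b) (1 + r * (1 - b)) (1 - r))
        / Sy (1 + r * b) (1 + r * (1 - b)) (1 - r)) := by
  refine ⟨?_, ?_, ?_, ?_⟩
  · rw [← cP0_eq r b l u, ← cPt_eq r b l u, mul_div_mul_left _ _ hr.ne']
    rfl
  · rw [← cPt_eq r b l u, ← cS_eq r b l u]
    simp only [ctt, ciS, mul_assoc, div_eq_mul_inv]
  · rw [← cP0_eq r b l u, ← cPt_eq r b l u, mul_div_mul_left _ _ hr.ne']
    rfl
  · rw [← cP0_eq r b l u, ← cS_eq r b l u]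
    simp only [ctq, ciS, mul_assoc, div_eq_mul_inv]

lemma center_N {r b l u : ℝ} :
    Nxy (1 + r * b) (1 + r * (1 - b)) (1 - r) = r ^ 2 * (256 * cNn r b l u) := by
  have e0 := cP0_eq r b l u
  have e1 := cP1_eq r b l u
  have e2 := cPt_eq r b l u
  rw [cNn_eq]
  unfold Nxy
  have e3 : 3 * (1 - r) ^ 9 - Sy (1 + r * b) (1 + r * (1 - b)) (1 - r) = - (r * cPt r b l u) := by
    rw [e2]; ring
  rw [← e0, ← e1, e3]
  ring

lemma center_X {r b l u : ℝ} :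
    cXv r b l u = Nxy (1 + r * b) (1 + r * (1 - b)) (1 - r)
      / (Sy (1 + r * b) (1 + r * (1 - b)) (1 - r)) ^ 2 := by
  rw [center_N (r := r) (b := b) (l := l) (u := u), ← cS_eq r b l u]
  simp only [cXv, ciS, rv_256]
  rw [div_eq_mul_inv, pow_two (cS r b l u), mul_inv]
  ring

lemma box_K4c {r b l : ℝ} (h0 : 0 ≤ r) (h1 : r ≤ 1 / 8) (h2 : 1 / 2 ≤ b) (h3 : b ≤ 2)
    (h4 : 0 ≤ l) (h5 : l ≤ 1 / 4) : InBox rootK4c r b l 0 := by
  unfold rootK4c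
  apply inBox_all <;> rw [abs_le] <;> unfold rv zv <;> norm_num <;> constructor <;> linarith

lemma box_K5c {r b l : ℝ} (h0 : 0 ≤ r) (h1 : r ≤ 1 / 8) (h2 : 1 / 2 ≤ b) (h3 : b ≤ 2)
    (h4 : 1 / 4 ≤ l) (h5 : l ≤ 6691 / 16384) : InBox rootK5c r b l 0 := by
  unfold rootK5c
  apply inBox_all <;> rw [abs_le] <;> unfold rv zv <;> norm_num <;> constructor <;> linarith

lemma box_Kv {r b : ℝ} (h0 : 0 ≤ r) (h1 : r ≤ 11 / 64) (h2 : 1 / 2 ≤ b) (h3 : b ≤ 2) :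
    InBox rootKAu r b 0 0 ∧ InBox rootKBu r b 0 0 ∧ InBox rootKRl r b 0 0 ∧ InBox rootKRu r b 0 0
      ∧ InBox rootKXm r b 0 0 := by
  refine ⟨?_, ?_, ?_, ?_, ?_⟩
  · unfold rootKAu
    apply inBox_all <;> rw [abs_le] <;> unfold rv zv <;> norm_num <;> constructor <;> linarith
  · unfold rootKBu
    apply inBox_all <;> rw [abs_le] <;> unfold rv zv <;> norm_num <;> constructor <;> linarith
  · unfold rootKRl
    apply inBox_all <;> rw [abs_le] <;> unfold rv zv <;> norm_num <;> constructor <;> linarith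
  · unfold rootKRu
    apply inBox_all <;> rw [abs_le] <;> unfold rv zv <;> norm_num <;> constructor <;> linarith
  · unfold rootKXm
    apply inBox_all <;> rw [abs_le] <;> unfold rv zv <;> norm_num <;> constructor <;> linarith

lemma box_K4f {r b l : ℝ} (h0 : 0 ≤ r) (h1 : r ≤ 1) (h2 : 0 ≤ b) (h3 : b ≤ 1)
    (h4 : 0 ≤ l) (h5 : l ≤ 1 / 4) : InBox rootK4f r b l 0 := by
  unfold rootK4f
  apply inBox_all <;> rw [abs_le] <;> unfold rv zv <;> norm_num <;> constructor <;> linarith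

lemma box_K5f {r b l : ℝ} (h0 : 0 ≤ r) (h1 : r ≤ 1) (h2 : 0 ≤ b) (h3 : b ≤ 1)
    (h4 : 1 / 4 ≤ l) (h5 : l ≤ 6691 / 16384) : InBox rootK5f r b l 0 := by
  unfold rootK5f
  apply inBox_all <;> rw [abs_le] <;> unfold rv zv <;> norm_num <;> constructor <;> linarith

/-- The top level inequality on the center chart, small eigenvalues. -/
theorem top_center4 {r b l : ℝ} (h0 : 0 < r) (h1 : r ≤ 1 / 8) (h2 : 1 / 2 ≤ b) (h3 : b ≤ 2)
    (h4 : 0 ≤ l) (h5 : l ≤ 1 / 4) :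
    (Nxy (1 + r * b) (1 + r * (1 - b)) (1 - r)) ^ 2
        * rhsP ((Sy (1 + r * b) (1 + r * (1 - b)) (1 - r) - 3 * (1 - r) ^ 9)
            / (3 * (1 + r * b) ^ 9 - Sy (1 + r * b) (1 + r * (1 - b)) (1 - r)))
          (l * ((3 * (1 + r * b) ^ 9 - Sy (1 + r * b) (1 + r * (1 - b)) (1 - r))
            / Sy (1 + r * b) (1 + r * (1 - b)) (1 - r))) l
      ≤ (Sy (1 + r * b) (1 + r * (1 - b)) (1 - r) * Lpn (1 + r * b) (1 + r * (1 - b)) (1 - r)
          - Nxy (1 + r * b) (1 + r * (1 - b)) (1 - r))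
        * (Sy (1 + r * b) (1 + r * (1 - b)) (1 - r)) ^ 2 := by
  have g := goodK4c r b l 0 (box_K4c h0.le h1 h2 h3 h4 h5) (by
    intro j
    rw [nthEx_nil]
    unfold Ex.evR rv zv
    norm_num)
  rw [evR_K4c] at g
  obtain ⟨_, _, eaq, etq⟩ := center_vals (r := r) (b := b) (l := l) (u := 0) h0
  have eR : crhs4 r b l 0 = rhsP (caq r b l 0) (ctq r b l 0) l := rfl
  have eM := cMt_eq r b l 0
  have eS := cS_eq r b l 0
  have eN := center_N (r := r) (b := b) (l := l) (u := 0)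
  rw [← eaq, ← etq, ← eR, ← eM, eN, ← eS]
  unfold RK4c at g
  have hr4 : 0 ≤ r ^ 4 * 65536 := by positivity
  have h6 := mul_nonneg hr4 g
  have e : r ^ 4 * (65536 * cMt r b l 0) * cS r b l 0 ^ 2 - (r ^ 2 * (256 * cNn r b l 0)) ^ 2 * crhs4 r b l 0
      = r ^ 4 * 65536 * (cMt r b l 0 * (cS r b l 0 * cS r b l 0) - cNn r b l 0 * cNn r b l 0 * crhs4 r b l 0) := by
    ring
  linarith

/-- The top level inequality on the center chart, larger eigenvalues. -/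
theorem top_center5 {r b l : ℝ} (h0 : 0 < r) (h1 : r ≤ 1 / 8) (h2 : 1 / 2 ≤ b) (h3 : b ≤ 2)
    (h4 : 1 / 4 ≤ l) (h5 : l ≤ 6691 / 16384) :
    (Nxy (1 + r * b) (1 + r * (1 - b)) (1 - r)) ^ 2
        * rhsR ((Sy (1 + r * b) (1 + r * (1 - b)) (1 - r) - 3 * (1 - r) ^ 9)
            / (3 * (1 + r * b) ^ 9 - Sy (1 + r * b) (1 + r * (1 - b)) (1 - r)))
          (l * ((3 * (1 + r * b) ^ 9 - Sy (1 + r * b) (1 + r * (1 - b)) (1 - r))
            / Sy (1 + r * b) (1 + r * (1 - b)) (1 - r))) l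
          (Nxy (1 + r * b) (1 + r * (1 - b)) (1 - r) / (Sy (1 + r * b) (1 + r * (1 - b)) (1 - r)) ^ 2)
      ≤ (Sy (1 + r * b) (1 + r * (1 - b)) (1 - r) * Lpn (1 + r * b) (1 + r * (1 - b)) (1 - r)
          - Nxy (1 + r * b) (1 + r * (1 - b)) (1 - r))
        * (Sy (1 + r * b) (1 + r * (1 - b)) (1 - r)) ^ 2 := by
  have g := goodK5c r b l 0 (box_K5c h0.le h1 h2 h3 h4 h5) (by
    intro j
    rw [nthEx_nil]
    unfold Ex.evR rv zv
    norm_num)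
  rw [evR_K5c] at g
  obtain ⟨_, _, eaq, etq⟩ := center_vals (r := r) (b := b) (l := l) (u := 0) h0
  have eR : crhs5 r b l 0 = rhsR (caq r b l 0) (ctq r b l 0) l (cXv r b l 0) := rfl
  have eM := cMt_eq r b l 0
  have eS := cS_eq r b l 0
  have eN := center_N (r := r) (b := b) (l := l) (u := 0)
  have eX := center_X (r := r) (b := b) (l := l) (u := 0)
  rw [← eX, ← eaq, ← etq, ← eR, ← eM, eN, ← eS]
  unfold RK5c at g
  have hr4 : 0 ≤ r ^ 4 * 65536 := by positivity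
  have h6 := mul_nonneg hr4 g
  have e : r ^ 4 * (65536 * cMt r b l 0) * cS r b l 0 ^ 2 - (r ^ 2 * (256 * cNn r b l 0)) ^ 2 * crhs5 r b l 0
      = r ^ 4 * 65536 * (cMt r b l 0 * (cS r b l 0 * cS r b l 0) - cNn r b l 0 * cNn r b l 0 * crhs5 r b l 0) := by
    ring
  linarith

/-- The upper bounds on the center chart. -/
theorem up_center {r b : ℝ} (h0 : 0 < r) (h1 : r ≤ 11 / 64) (h2 : 1 / 2 ≤ b) (h3 : b ≤ 2)
    (hv : (3 * (1 + r * b) ^ 9 - Sy (1 + r * b) (1 + r * (1 - b)) (1 - r))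
      / Sy (1 + r * b) (1 + r * (1 - b)) (1 - r) ≤ 1 / 2)
    (hs : (Sy (1 + r * b) (1 + r * (1 - b)) (1 - r) - 3 * (1 - r) ^ 9)
      / Sy (1 + r * b) (1 + r * (1 - b)) (1 - r) ≤ 27 / 32)
    (hS : 0 < Sy (1 + r * b) (1 + r * (1 - b)) (1 - r)) :
    ((Sy (1 + r * b) (1 + r * (1 - b)) (1 - r) * Lpn (1 + r * b) (1 + r * (1 - b)) (1 - r)
          - Nxy (1 + r * b) (1 + r * (1 - b)) (1 - r))
        * (Sy (1 + r * b) (1 + r * (1 - b)) (1 - r)) ^ 2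
      ≤ (Nxy (1 + r * b) (1 + r * (1 - b)) (1 - r)) ^ 2
        * AbF ((3 * (1 + r * b) ^ 9 - Sy (1 + r * b) (1 + r * (1 - b)) (1 - r))
            / (Sy (1 + r * b) (1 + r * (1 - b)) (1 - r) - 3 * (1 - r) ^ 9) - rv 281475312254976)
          ((Sy (1 + r * b) (1 + r * (1 - b)) (1 - r) - 3 * (1 - r) ^ 9)
            / Sy (1 + r * b) (1 + r * (1 - b)) (1 - r) - rv 281475089956864)) ∧
    (Wnn (1 + r * b) (1 + r * (1 - b)) (1 - r) * Sy (1 + r * b) (1 + r * (1 - b)) (1 - r)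
      ≤ Nxy (1 + r * b) (1 + r * (1 - b)) (1 - r)
        * BbF ((3 * (1 + r * b) ^ 9 - Sy (1 + r * b) (1 + r * (1 - b)) (1 - r))
            / (Sy (1 + r * b) (1 + r * (1 - b)) (1 - r) - 3 * (1 - r) ^ 9) - rv 281475312254976)
          ((Sy (1 + r * b) (1 + r * (1 - b)) (1 - r) - 3 * (1 - r) ^ 9)
            / Sy (1 + r * b) (1 + r * (1 - b)) (1 - r) - rv 281475089956864)) := by
  obtain ⟨b1, b2, _, _, _⟩ := box_Kv h0.le h1 h2 h3
  obtain ⟨ea, et, _, _⟩ := center_vals (r := r) (b := b) (l := (0 : ℝ)) (u := (0 : ℝ)) h0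
  have eW := cWt_eq r b 0 0
  have eM := cMt_eq r b 0 0
  have eS := cS_eq r b 0 0
  have eP := cPt_eq r b 0 0
  have eP0 := cP0_eq r b 0 0
  have eN := center_N (r := r) (b := b) (l := (0 : ℝ)) (u := (0 : ℝ))
  have side : ∀ j, 0 ≤ Ex.evR (nthEx gsA j) [r, b, 0, 0] := by
    intro j
    match j with
    | 0 =>
      rw [evR_gsA0, rv_half, eS, eP0]
      rw [div_le_iff₀ hS] at hv
      linarith
    | 1 =>
      rw [evR_gsA1, rv_TM, eS, eP]
      rw [div_le_iff₀ hS] at hs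
      linarith
    | (j + 2) =>
      have : nthEx gsA (j + 2) = Ex.c 281474976710656 := rfl
      rw [this]
      unfold Ex.evR rv zv
      norm_num
  have gA := goodKAu r b 0 0 b1 side
  have gB := goodKBu r b 0 0 b2 side
  rw [evR_KAu] at gA
  rw [evR_KBu] at gB
  have hr4 : 0 ≤ r ^ 4 * 65536 := by positivity
  have hr2 : 0 ≤ r ^ 2 * 256 := by positivity
  have eA : cAba r b 0 0 = AbF (caa r b 0 0 - rv 281475312254976) (ctt r b 0 0 - rv 281475089956864) := rfl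
  have eB : cBba r b 0 0 = BbF (caa r b 0 0 - rv 281475312254976) (ctt r b 0 0 - rv 281475089956864) := rfl
  rw [← ea, ← et, ← eB, ← eA, ← eM, ← eW, eN, ← eS]
  refine ⟨?_, ?_⟩
  · unfold RKAu cNN at gA
    have h6 := mul_nonneg hr4 gA
    have e : (r ^ 2 * (256 * cNn r b 0 0)) ^ 2 * cAba r b 0 0 - r ^ 4 * (65536 * cMt r b 0 0) * cS r b 0 0 ^ 2
        = r ^ 4 * 65536 * (cNn r b 0 0 * cNn r b 0 0 * cAba r b 0 0 - cMt r b 0 0 * (cS r b 0 0 * cS r b 0 0)) := by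
      ring
    linarith
  · unfold RKBu cWs at gB
    rw [rv_kk] at gB
    have h6 := mul_nonneg hr2 gB
    have e : r ^ 2 * (256 * cNn r b 0 0) * cBba r b 0 0 - r ^ 2 * cWt r b 0 0 * cS r b 0 0
        = r ^ 2 * 256 * (cNn r b 0 0 * cBba r b 0 0 - 1 / 256 * (cWt r b 0 0 * cS r b 0 0)) := by
      ring
    linarith

/-- The hull estimates on the center chart. -/
theorem hull_center {r b : ℝ} (h0 : 0 < r) (h1 : r ≤ 11 / 64) (h2 : 1 / 2 ≤ b) (h3 : b ≤ 2)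
    (hv : (3 * (1 + r * b) ^ 9 - Sy (1 + r * b) (1 + r * (1 - b)) (1 - r))
      / Sy (1 + r * b) (1 + r * (1 - b)) (1 - r) ≤ 6691 / 16384)
    (hs : (Sy (1 + r * b) (1 + r * (1 - b)) (1 - r) - 3 * (1 - r) ^ 9)
      / Sy (1 + r * b) (1 + r * (1 - b)) (1 - r) ≤ 6691 / 8192)
    (hS : 0 < Sy (1 + r * b) (1 + r * (1 - b)) (1 - r)) :
    ((2117745 / 32768) * Hpn (1 + r * b) (1 + r * (1 - b)) (1 - r) ≤ Hny (1 + r * b) (1 + r * (1 - b)) (1 - r)) ∧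
    (Hny (1 + r * b) (1 + r * (1 - b)) (1 - r) ≤ (278235 / 4096) * Hpn (1 + r * b) (1 + r * (1 - b)) (1 - r)) ∧
    (Hpn (1 + r * b) (1 + r * (1 - b)) (1 - r) ≤ (147 / 512) * Sy (1 + r * b) (1 + r * (1 - b)) (1 - r)) := by
  obtain ⟨_, _, b3, b4, b5⟩ := box_Kv h0.le h1 h2 h3
  have eS := cS_eq r b 0 0
  have eP := cPt_eq r b 0 0
  have eP0 := cP0_eq r b 0 0
  have eHq := cHq_eq r b 0 0
  have eHp := cHp_eq r b 0 0
  have side : ∀ j, 0 ≤ Ex.evR (nthEx gsL j) [r, b, 0, 0] := by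
    intro j
    match j with
    | 0 =>
      rw [evR_gsL0, rv_L, eS, eP0]
      rw [div_le_iff₀ hS] at hv
      linarith
    | 1 =>
      rw [evR_gsL1, rv_2L, eS, eP]
      rw [div_le_iff₀ hS] at hs
      linarith
    | (j + 2) =>
      have : nthEx gsL (j + 2) = Ex.c 281474976710656 := rfl
      rw [this]
      unfold Ex.evR rv zv
      norm_num
  have gl := goodKRl r b 0 0 b3 side
  have gu := goodKRu r b 0 0 b4 side
  have gx := goodKXm r b 0 0 b5 side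
  rw [evR_KRl] at gl
  rw [evR_KRu] at gu
  rw [evR_KXm] at gx
  have hr2 : 0 ≤ r ^ 2 := by positivity
  rw [← eHq, ← eHp, ← eS]
  refine ⟨?_, ?_, ?_⟩
  · unfold RKRl at gl
    rw [rv_R1] at gl
    have h6 := mul_nonneg hr2 gl
    nlinarith
  · unfold RKRu at gu
    rw [rv_R2] at gu
    have h6 := mul_nonneg hr2 gu
    nlinarith
  · unfold RKXm at gx
    rw [rv_XM] at gx
    have e : r * (r * cHp r b 0 0) = r ^ 2 * cHp r b 0 0 := by ring
    linarith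

/-! ### The far chart -/

lemma far_vals (r b l u : ℝ) :
    fS r b l u = Sy 1 r b ∧ fLp r b l u = Lpn 1 r b ∧ fNx r b l u = Nxy 1 r b ∧
    fP0 r b l u = 3 * (1 : ℝ) ^ 9 - Sy 1 r b ∧ fPt r b l u = Sy 1 r b - 3 * b ^ 9 := by
  have eS : fS r b l u = Sy 1 r b := by
    simp only [fS, fa9, fa8, fa7, fa6, fa5, fa4, fa3, fa2, fb9, fb8, fb7, fb6, fb5, fb4, fb3, fb2, Sy, rv, zv]
    push_cast
    ring
  have eP0 : fP0 r b l u = 3 * (1 : ℝ) ^ 9 - Sy 1 r b := by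
    rw [← eS]
    simp only [fP0, rv, zv]
    push_cast
    ring
  have eP1 : fP1 r b l u = 3 * r ^ 9 - Sy 1 r b := by
    rw [← eS]
    simp only [fP1, fa9, fa8, fa7, fa6, fa5, fa4, fa3, fa2, rv, zv]
    push_cast
    ring
  have ePt : fPt r b l u = Sy 1 r b - 3 * b ^ 9 := by
    rw [← eS]
    simp only [fPt, fb9, fb8, fb7, fb6, fb5, fb4, fb3, fb2, rv, zv]
    push_cast
    ring
  refine ⟨eS, ?_, ?_, eP0, ePt⟩
  · simp only [fLp, fS, fm1, fm2, fmp, fa9, fa8, fa7, fa6, fa5, fa4, fa3, fa2, fb9, fb8, fb7, fb6, fb5, fb4, fb3, fb2,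
      Lpn, Hny, Hpn, Sy, m1y, m2y, e3y, rv, zv]
    push_cast
    ring
  · have e3 : 3 * b ^ 9 - Sy 1 r b = - fPt r b l u := by rw [ePt]; ring
    have e4 : 3 * (1 : ℝ) ^ 9 - Sy 1 r b = fP0 r b l u := eP0.symm
    have e5 : 3 * r ^ 9 - Sy 1 r b = fP1 r b l u := eP1.symm
    unfold fNx Nxy
    rw [e3, e4, e5]
    ring

lemma far_side {r b l : ℝ} (hrb : b ≤ r) (hs : 17 * b ≤ 7 * (1 + r)) :
    ∀ j, 0 ≤ Ex.evR (nthEx gsf j) [r, b, l, 0] := by
  have e7 : rv 281476855758848 = 7 := by unfold rv zv; norm_num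
  have e17 : rv 281479540113408 = 17 := by unfold rv zv; norm_num
  intro j
  match j with
  | 0 =>
    show 0 ≤ r - b
    linarith
  | 1 =>
    show 0 ≤ rv 281476855758848 * (rv 281475245146112 + r) - rv 281479540113408 * b
    rw [e7, e17, rv_one]
    linarith
  | (j + 2) =>
    have : nthEx gsf (j + 2) = Ex.c 281474976710656 := rfl
    rw [this]
    unfold Ex.evR rv zv
    norm_num

/-- The top level inequality on the far chart, small eigenvalues. -/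
theorem top_far4 {r b l : ℝ} (h0 : 0 ≤ r) (h1 : r ≤ 1) (h2 : 0 ≤ b) (h3 : b ≤ 1)
    (h4 : 0 ≤ l) (h5 : l ≤ 1 / 4) (hrb : b ≤ r) (hs : 17 * b ≤ 7 * (1 + r)) :
    (Nxy 1 r b) ^ 2 * rhsP ((Sy 1 r b - 3 * b ^ 9) / (3 * (1 : ℝ) ^ 9 - Sy 1 r b))
        (l * ((3 * (1 : ℝ) ^ 9 - Sy 1 r b) / Sy 1 r b)) l
      ≤ (Sy 1 r b * Lpn 1 r b - Nxy 1 r b) * (Sy 1 r b) ^ 2 := by
  have g := goodK4f r b l 0 (box_K4f h0 h1 h2 h3 h4 h5) (far_side hrb hs)
  rw [evR_K4f] at g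
  obtain ⟨eS, eL, eN, eP0, ePt⟩ := far_vals r b l 0
  have ea : faq r b l 0 = (Sy 1 r b - 3 * b ^ 9) / (3 * (1 : ℝ) ^ 9 - Sy 1 r b) := by
    rw [← eP0, ← ePt]; rfl
  have et : ftq r b l 0 = l * ((3 * (1 : ℝ) ^ 9 - Sy 1 r b) / Sy 1 r b) := by
    rw [← eP0, ← eS]
    simp only [ftq, fiS, div_eq_mul_inv]
  have eR : frhs4 r b l 0 = rhsP (faq r b l 0) (ftq r b l 0) l := rfl
  rw [← ea, ← et, ← eS, ← eL, ← eN, ← eR]
  unfold RK4f fM at g
  have e : (fS r b l 0 * fLp r b l 0 - fNx r b l 0) * fS r b l 0 ^ 2 - fNx r b l 0 ^ 2 * frhs4 r b l 0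
      = (fS r b l 0 * fLp r b l 0 - fNx r b l 0) * (fS r b l 0 * fS r b l 0) - fNx r b l 0 * fNx r b l 0 * frhs4 r b l 0 := by
    ring
  linarith

/-- The top level inequality on the far chart, larger eigenvalues. -/
theorem top_far5 {r b l : ℝ} (h0 : 0 ≤ r) (h1 : r ≤ 1) (h2 : 0 ≤ b) (h3 : b ≤ 1)
    (h4 : 1 / 4 ≤ l) (h5 : l ≤ 6691 / 16384) (hrb : b ≤ r) (hs : 17 * b ≤ 7 * (1 + r)) :
    (Nxy 1 r b) ^ 2 * rhsR ((Sy 1 r b - 3 * b ^ 9) / (3 * (1 : ℝ) ^ 9 - Sy 1 r b))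
        (l * ((3 * (1 : ℝ) ^ 9 - Sy 1 r b) / Sy 1 r b)) l (Nxy 1 r b / (Sy 1 r b) ^ 2)
      ≤ (Sy 1 r b * Lpn 1 r b - Nxy 1 r b) * (Sy 1 r b) ^ 2 := by
  have g := goodK5f r b l 0 (box_K5f h0 h1 h2 h3 h4 h5) (far_side hrb hs)
  rw [evR_K5f] at g
  obtain ⟨eS, eL, eN, eP0, ePt⟩ := far_vals r b l 0
  have ea : faq r b l 0 = (Sy 1 r b - 3 * b ^ 9) / (3 * (1 : ℝ) ^ 9 - Sy 1 r b) := by
    rw [← eP0, ← ePt]; rfl
  have et : ftq r b l 0 = l * ((3 * (1 : ℝ) ^ 9 - Sy 1 r b) / Sy 1 r b) := by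
    rw [← eP0, ← eS]
    simp only [ftq, fiS, div_eq_mul_inv]
  have eX : fXv r b l 0 = Nxy 1 r b / (Sy 1 r b) ^ 2 := by
    rw [← eN, ← eS]
    simp only [fXv, fiS]
    rw [div_eq_mul_inv, pow_two (fS r b l 0), mul_inv]
  have eR : frhs5 r b l 0 = rhsR (faq r b l 0) (ftq r b l 0) l (fXv r b l 0) := rfl
  rw [← ea, ← et, ← eX, ← eS, ← eL, ← eN, ← eR]
  unfold RK5f fM at g
  have e : (fS r b l 0 * fLp r b l 0 - fNx r b l 0) * fS r b l 0 ^ 2 - fNx r b l 0 ^ 2 * frhs5 r b l 0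
      = (fS r b l 0 * fLp r b l 0 - fNx r b l 0) * (fS r b l 0 * fS r b l 0) - fNx r b l 0 * fNx r b l 0 * frhs5 r b l 0 := by
    ring
  linarith

/-! ### Sorted points -/

/-- The top level inequality on sorted points, by the choice of chart. -/
lemma top_sorted_gen {u0 u1 u2 : ℝ} {Q : ℝ → ℝ → ℝ → ℝ} (hT : InT u0 u1 u2) (h01 : u1 ≤ u0) (h12 : u2 ≤ u1)
    (hneg : u2 < 0)
    (Hc : ∀ r b : ℝ, 0 < r → r ≤ 1 / 8 → 1 / 2 ≤ b → b ≤ 2 →
      (Nxy (1 + r * b) (1 + r * (1 - b)) (1 - r)) ^ 2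
          * Q ((Sy (1 + r * b) (1 + r * (1 - b)) (1 - r) - 3 * (1 - r) ^ 9)
              / (3 * (1 + r * b) ^ 9 - Sy (1 + r * b) (1 + r * (1 - b)) (1 - r)))
            ((3 * (1 + r * b) ^ 9 - Sy (1 + r * b) (1 + r * (1 - b)) (1 - r))
              / Sy (1 + r * b) (1 + r * (1 - b)) (1 - r))
            (Nxy (1 + r * b) (1 + r * (1 - b)) (1 - r) / (Sy (1 + r * b) (1 + r * (1 - b)) (1 - r)) ^ 2)
        ≤ (Sy (1 + r * b) (1 + r * (1 - b)) (1 - r) * Lpn (1 + r * b) (1 + r * (1 - b)) (1 - r)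
            - Nxy (1 + r * b) (1 + r * (1 - b)) (1 - r))
          * (Sy (1 + r * b) (1 + r * (1 - b)) (1 - r)) ^ 2)
    (Hf' : ∀ r b : ℝ, 0 ≤ r → r ≤ 1 → 0 ≤ b → b ≤ 1 → b ≤ r → 17 * b ≤ 7 * (1 + r) →
      (Nxy 1 r b) ^ 2 * Q ((Sy 1 r b - 3 * b ^ 9) / (3 * (1 : ℝ) ^ 9 - Sy 1 r b))
          ((3 * (1 : ℝ) ^ 9 - Sy 1 r b) / Sy 1 r b) (Nxy 1 r b / (Sy 1 r b) ^ 2)
        ≤ (Sy 1 r b * Lpn 1 r b - Nxy 1 r b) * (Sy 1 r b) ^ 2) :
    (sq3 u0 u1 u2) ^ 2 * Q ((-u2) / u0) u0 (sq3 u0 u1 u2) ≤ psiN u0 u1 u2 - sq3 u0 u1 u2 := by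
  have hs := hT.1
  have hpos : 0 < u0 := by linarith
  have H := srt_of hT h01 h12 hneg
  obtain ⟨τ, a, h1, h2, h3, h4, R⟩ := center_rep H
  by_cases hτ : τ ≤ 1 / 8
  · exact top_of_rep R hpos (Hc τ a h1 hτ h2 h3)
  · have hτ' : 1 / 8 < τ := not_le.1 hτ
    obtain ⟨_, e0, e1, e2, p0, p1, p2, n2, o12, o01, s02⟩ := H
    set r0 := rt (1 + u0)
    set r1 := rt (1 + u1)
    set r2 := rt (1 + u2)
    have hr : 0 < r0 := by linarith
    have hσ : 0 < r0 + r1 + r2 := by linarith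
    have h7 : r0 + r1 + r2 < 8 * (r0 + r1 - 2 * r2) := by
      have := mul_lt_mul_of_pos_right hτ' hσ
      rw [h4] at this
      linarith
    apply top_of_rep (far_rep ⟨hT, rfl, rfl, rfl, p0, p1, p2, n2, o12, o01, s02⟩) hpos
    apply Hf' _ _ (div_nonneg (by linarith) hr.le) _ (div_nonneg n2 hr.le) _
    · exact div_le_div_of_nonneg_right o12 hr.le
    · have e : 7 * (1 + r1 / r0) = (7 * (r0 + r1)) / r0 := by field_simp
      rw [e, mul_div_assoc', div_le_div_iff_of_pos_right hr]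
      linarith
    · rw [div_le_one hr]; exact o01
    · rw [div_le_one hr]; linarith

/-- The top level inequality, small eigenvalues. -/
theorem top_sorted4 {u0 u1 u2 l : ℝ} (hT : InT u0 u1 u2) (h01 : u1 ≤ u0) (h12 : u2 ≤ u1) (hneg : u2 < 0)
    (hl0 : 0 ≤ l) (hl1 : l ≤ 1 / 4) :
    (sq3 u0 u1 u2) ^ 2 * rhsP ((-u2) / u0) (l * u0) l ≤ psiN u0 u1 u2 - sq3 u0 u1 u2 :=
  top_sorted_gen (Q := fun a t _ => rhsP a (l * t) l) hT h01 h12 hneg
    (fun _ _ a1 a2 a3 a4 => top_center4 a1 a2 a3 a4 hl0 hl1)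
    (fun _ _ a1 a2 a3 a4 a5 a6 => top_far4 a1 a2 a3 a4 hl0 hl1 a5 a6)

/-- The top level inequality, larger eigenvalues. -/
theorem top_sorted5 {u0 u1 u2 l : ℝ} (hT : InT u0 u1 u2) (h01 : u1 ≤ u0) (h12 : u2 ≤ u1) (hneg : u2 < 0)
    (hl0 : 1 / 4 ≤ l) (hl1 : l ≤ 6691 / 16384) :
    (sq3 u0 u1 u2) ^ 2 * rhsR ((-u2) / u0) (l * u0) l (sq3 u0 u1 u2) ≤ psiN u0 u1 u2 - sq3 u0 u1 u2 :=
  top_sorted_gen (Q := fun a t X => rhsR a (l * t) l X) hT h01 h12 hneg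
    (fun _ _ a1 a2 a3 a4 => top_center5 a1 a2 a3 a4 hl0 hl1)
    (fun _ _ a1 a2 a3 a4 a5 a6 => top_far5 a1 a2 a3 a4 hl0 hl1 a5 a6)

/-- The radius of the center chart is bounded on the domain of the upper bounds. -/
lemma tau_bound {w0 w1 w2 τ r0 r1 r2 : ℝ} (H : Srt w0 w1 w2 r0 r1 r2) (hv : w0 ≤ 1 / 2) (ht : -w2 ≤ 27 / 32)
    (h4 : τ * (r0 + r1 + r2) = r0 + r1 - 2 * r2) : τ ≤ 11 / 64 := by
  obtain ⟨_, _, _, _, p0, _, p2, n2, o12, o01, s02⟩ := H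
  have hσ : 0 < r0 + r1 + r2 := by linarith
  have key : 106 * r0 ≤ 139 * r2 := by
    by_contra hc
    have hc' : 139 * r2 < 106 * r0 := not_le.1 hc
    have := pow_lt_pow_left₀ hc' (by positivity) (by norm_num : (9 : ℕ) ≠ 0)
    have e1' : (139 * r2) ^ 9 = 19370159742424031659 * r2 ^ 9 := by ring
    have e2' : (106 * r0) ^ 9 = 1689478959002692096 * r0 ^ 9 := by ring
    rw [e1', e2', p0, p2] at this
    linarith
  by_contra hc
  have hτ' : 11 / 64 < τ := not_le.1 hc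
  have := mul_lt_mul_of_pos_right hτ' hσ
  rw [h4] at this
  linarith

/-- The upper bounds on sorted points. -/
theorem up_sorted {w0 w1 w2 : ℝ} (hT : InT w0 w1 w2) (h01 : w1 ≤ w0) (h12 : w2 ≤ w1) (hneg : w2 < 0)
    (hv : w0 ≤ 1 / 2) (ht : -w2 ≤ 27 / 32) :
    psiN w0 w1 w2 - sq3 w0 w1 w2
        ≤ (sq3 w0 w1 w2) ^ 2 * AbF (w0 / (-w2) - rv 281475312254976) (-w2 - rv 281475089956864) ∧
      WN w0 w1 w2 ≤ sq3 w0 w1 w2 * BbF (w0 / (-w2) - rv 281475312254976) (-w2 - rv 281475089956864) := by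
  have H := srt_of hT h01 h12 hneg
  obtain ⟨τ, a, h1, h2, h3, h4, R⟩ := center_rep H
  have hτ := tau_bound H hv ht h4
  have hS := R.pos
  have eV : w0 = (3 * (1 + τ * a) ^ 9 - Sy (1 + τ * a) (1 + τ * (1 - a)) (1 - τ))
      / Sy (1 + τ * a) (1 + τ * (1 - a)) (1 - τ) := R.e0
  have eT : -w2 = (Sy (1 + τ * a) (1 + τ * (1 - a)) (1 - τ) - 3 * (1 - τ) ^ 9)
      / Sy (1 + τ * a) (1 + τ * (1 - a)) (1 - τ) := by
    rw [R.e2]; ring
  obtain ⟨g1, g2⟩ := up_center h1 hτ h2 h3 (by rw [← eV]; exact hv) (by rw [← eT]; exact ht) hS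
  exact up_of_rep R hneg (A := fun x y => AbF (x - rv 281475312254976) (y - rv 281475089956864))
    (B := fun x y => BbF (x - rv 281475312254976) (y - rv 281475089956864)) g1 g2

/-- The hull estimates on sorted points. -/
theorem hull_sorted {w0 w1 w2 : ℝ} (hT : InT w0 w1 w2) (h01 : w1 ≤ w0) (h12 : w2 ≤ w1)
    (hv : w0 ≤ 6691 / 16384) (ht : -w2 ≤ 6691 / 8192) :
    (2117745 / 32768) * (1 - Gp w0 w1 w2) ≤ Hf w0 w1 w2 ∧ Hf w0 w1 w2 ≤ (278235 / 4096) * (1 - Gp w0 w1 w2) ∧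
      1 - Gp w0 w1 w2 ≤ 147 / 512 := by
  by_cases hneg : w2 < 0
  · have H := srt_of hT h01 h12 hneg
    obtain ⟨τ, a, h1, h2, h3, h4, R⟩ := center_rep H
    have hτ := tau_bound H (by linarith) (by linarith) h4
    have hS := R.pos
    have eV : w0 = (3 * (1 + τ * a) ^ 9 - Sy (1 + τ * a) (1 + τ * (1 - a)) (1 - τ))
        / Sy (1 + τ * a) (1 + τ * (1 - a)) (1 - τ) := R.e0
    have eT : -w2 = (Sy (1 + τ * a) (1 + τ * (1 - a)) (1 - τ) - 3 * (1 - τ) ^ 9)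
        / Sy (1 + τ * a) (1 + τ * (1 - a)) (1 - τ) := by
      rw [R.e2]; ring
    obtain ⟨g1, g2, g3⟩ := hull_center h1 hτ h2 h3 (by rw [← eV]; exact hv) (by rw [← eT]; exact ht) hS
    rw [R.hp, R.hf]
    refine ⟨?_, ?_, ?_⟩
    · rw [← mul_div_assoc]
      exact div_le_div_of_nonneg_right g1 hS.le
    · rw [← mul_div_assoc]
      exact div_le_div_of_nonneg_right g2 hS.le
    · rw [div_le_iff₀ hS]
      exact g3
  · obtain ⟨e0, e1, e2⟩ := zero_of_sorted hT h01 h12 hneg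
    subst e0 e1 e2
    rw [values_zero.1, values_zero.2]
    norm_num

/-- The hull estimates on the triangle. -/
theorem hull_all : ∀ w0 w1 w2 : ℝ, InT w0 w1 w2 →
    (w0 ≤ 6691 / 16384 ∧ w1 ≤ 6691 / 16384 ∧ w2 ≤ 6691 / 16384) →
    (-w0 ≤ 6691 / 8192 ∧ -w1 ≤ 6691 / 8192 ∧ -w2 ≤ 6691 / 8192) →
    ((2117745 / 32768) * (1 - Gp w0 w1 w2) ≤ Hf w0 w1 w2 ∧ Hf w0 w1 w2 ≤ (278235 / 4096) * (1 - Gp w0 w1 w2) ∧
      1 - Gp w0 w1 w2 ≤ 147 / 512) := by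
  apply sym_reduce
  · intro a b c h h0 h1
    rw [Hf_swap01 a b c, Gp_swap01 a b c]
    exact h ⟨h0.2.1, h0.1, h0.2.2⟩ ⟨h1.2.1, h1.1, h1.2.2⟩
  · intro a b c h h0 h1
    rw [Hf_swap12 a b c, Gp_swap12 a b c]
    exact h ⟨h0.1, h0.2.2, h0.2.1⟩ ⟨h1.1, h1.2.2, h1.2.1⟩
  · intro a b c hT h1 h2 h3 h4
    exact hull_sorted hT h1 h2 h3.1 h4.2.2

end SN

end Vale.Agent.Lib.P154
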